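import Vale.Agent.P267.H993.Model
import Mathlib.Tactic.NoncommRing

/-!
# P267, package RRK-PHI: the value of `Φ` on the zero section
-/

open scoped ContDiff Topology
open Set MeasureTheory

noncomputable section

namespace Vale.Agent.P267.H993

open Vale.Agent.P267.H315 (V VV dbv)

universe u

open OO

namespace OO

variable {W : Dom} {A : Type u} [NormedRing A] [NormedAlgebra ℂ A]

lemma d_sort (f : OO W A) : d 1 (d 0 f) = d 0 (d 1 f) := d_d 1 0 f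

lemma ev_R [CompleteSpace A] (k : ℕ) (f : OO W A) {z : V} (hz : (z, 0) ∈ W.W) :
    (R k f).fn (z, 0) = (1 / (k + 1) : ℂ) • f.fn (z, 0) := by
  rw [fn_R _ _ hz, RI_zero]

lemma ev_s (i : Fin 2) {z : V} (hz : (z, 0) ∈ W.W) : (s W i).fn (z, 0) = 0 := by
  rw [fn_s _ hz]
  rfl

end OO

namespace VF

variable {W : Dom} {A : Type u} [NormedRing A] [NormedAlgebra ℂ A] (M : VF W)

lemma ev_D (k : Fin 2) (f : OO W A) {z : V} (hz : (z, 0) ∈ W.W) :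
    (M.D k f).fn (z, 0) = (dz k f).fn (z, 0) := by
  unfold D
  rw [fn_add, fn_add, fn_smul, fn_smul, M.a0 k 0 z hz, M.a0 k 1 z hz]
  simp

lemma ev_DR [CompleteSpace A] (k : Fin 2) (n : ℕ) (f : OO W A) {z : V} (hz : (z, 0) ∈ W.W) :
    (M.D k (R n f)).fn (z, 0) = (1 / (n + 1) : ℂ) • (M.D k f).fn (z, 0) := by
  rw [ev_D _ _ _ hz, ev_D _ _ _ hz, dz_R, ev_R _ _ hz]

end VF

namespace Model

variable {W : Dom} {A : Type u} [NormedRing A] [NormedAlgebra ℂ A] (M : Model W A)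

lemma ev_Phi [CompleteSpace A] {z : V} (hz : (z, 0) ∈ W.W) :
    M.Phi.fn (z, 0) = (d 0 M.rho0).fn (z, 0) := by
  rw [M.rho0_eq, d_smul, d00, one_smul, fn_add, fn_smul, ev_s _ hz, zero_smul, add_zero]

lemma ev_dka {z : V} (hz : (z, 0) ∈ W.W) :
    (d 0 (M.ka 0)).fn (z, 0) = (d 0 (d 1 (M.RR 0 0))).fn (z, 0) := by
  rw [M.RR_0, d_mul, d11, one_mul, d_add, d_mul, d01, fn_add, fn_add, fn_mul, fn_mul, ev_s _ hz,
    fn_zero]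
  simp

/-- second jets of `a` -/
def a2 (z : V) (k i j l : Fin 2) : ℂ := (d j (d l (M.a k i))).fn (z, 0)

/-- first jets of `e` -/
def e1 (z : V) (k j : Fin 2) : A := (d j (M.e k)).fn (z, 0)

section
variable {z : V} (hz : (z, 0) ∈ W.W)
include hz

lemma F1_0 : (M.D 0 (d 0 (d 0 (d 1 (M.a 1 0))))).fn (z, 0)
    - (M.D 1 (d 0 (d 0 (d 1 (M.a 0 0))))).fn (z, 0) =
    -(2 * (M.a2 z 0 0 0 1 * M.a2 z 1 0 0 0 + M.a2 z 0 1 0 1 * M.a2 z 1 0 0 1)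
      + (M.a2 z 0 0 0 0 * M.a2 z 1 0 0 1 + M.a2 z 0 1 0 0 * M.a2 z 1 0 1 1))
    + (2 * (M.a2 z 1 0 0 1 * M.a2 z 0 0 0 0 + M.a2 z 1 1 0 1 * M.a2 z 0 0 0 1)
      + (M.a2 z 1 0 0 0 * M.a2 z 0 0 0 1 + M.a2 z 1 1 0 0 * M.a2 z 0 0 1 1)) := by
  have h := congrArg (fun f => (d 0 (d 0 (d 1 f))).fn (z, 0)) (M.flat_a 0)
  simp only [VF.d_D, smul_eq_mul', d_add, d_mul, d_sort, fn_add, fn_mul, M.a1 _ _ _ z hz,
    mul_zero, zero_mul, add_zero, zero_add] at h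
  simp only [a2]
  linear_combination h

lemma F1_1 : (M.D 0 (d 0 (d 1 (d 1 (M.a 1 1))))).fn (z, 0)
    - (M.D 1 (d 0 (d 1 (d 1 (M.a 0 1))))).fn (z, 0) =
    -(2 * (M.a2 z 0 0 0 1 * M.a2 z 1 1 0 1 + M.a2 z 0 1 0 1 * M.a2 z 1 1 1 1)
      + (M.a2 z 0 0 1 1 * M.a2 z 1 1 0 0 + M.a2 z 0 1 1 1 * M.a2 z 1 1 0 1))
    + (2 * (M.a2 z 1 0 0 1 * M.a2 z 0 1 0 1 + M.a2 z 1 1 0 1 * M.a2 z 0 1 1 1)
      + (M.a2 z 1 0 1 1 * M.a2 z 0 1 0 0 + M.a2 z 1 1 1 1 * M.a2 z 0 1 0 1)) := by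
  have h := congrArg (fun f => (d 0 (d 1 (d 1 f))).fn (z, 0)) (M.flat_a 1)
  simp only [VF.d_D, smul_eq_mul', d_add, d_mul, d_sort, fn_add, fn_mul, M.a1 _ _ _ z hz,
    mul_zero, zero_mul, add_zero, zero_add] at h
  simp only [a2]
  linear_combination h

lemma F2 : (M.D 0 (d 0 (d 1 (M.e 1)))).fn (z, 0) - (M.D 1 (d 0 (d 1 (M.e 0)))).fn (z, 0) =
    -(M.a2 z 0 0 0 1 • M.e1 z 1 0 + M.a2 z 0 1 0 1 • M.e1 z 1 1)
    + (M.a2 z 1 0 0 1 • M.e1 z 0 0 + M.a2 z 1 1 0 1 • M.e1 z 0 1)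
    + (M.e1 z 0 0 * M.e1 z 1 1 + M.e1 z 0 1 * M.e1 z 1 0
      - M.e1 z 1 0 * M.e1 z 0 1 - M.e1 z 1 1 * M.e1 z 0 0) := by
  have h := congrArg (fun f => (d 0 (d 1 f)).fn (z, 0)) M.flat_e
  simp only [d_sub, VF.d_D, d_add, d_mul, d_smul, fn_add, fn_sub, fn_mul, fn_smul,
    M.a1 _ _ _ z hz, M.e0 _ z hz,
    mul_zero, zero_mul, add_zero, zero_add, zero_smul] at h
  simp only [a2, e1]
  linear_combination (norm := module) h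

/-- value of `Γ_{k,i}` -/
lemma ev_Ga [CompleteSpace A] (k i : Fin 2) : (M.Ga k i).fn (z, 0) =
    ((1 / 2 : ℂ) * ((d i (d 0 (M.a k 0))).fn (z, 0) + (d i (d 1 (M.a k 1))).fn (z, 0))) • (1 : A)
      + M.e1 z k i := by
  simp only [Ga, gam, eta, tr, al, dv', d_add, d_sub, d_smul, d_one, smul_zero, add_zero, d_R,
    ev_R _ _ hz, fn_add, fn_sub, fn_smul, fn_one hz, e1]
  push_cast
  simp only [smul_eq_mul]
  module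

/-- value of `∂_0Γ_{k,i}` and its `D_j` -/
lemma ev_dGa [CompleteSpace A] (k : Fin 2) : (d 0 (M.Ga k 1)).fn (z, 0) =
    (1 / 3 : ℂ) • (((d 0 (d 0 (d 1 (M.a k 0)))).fn (z, 0) + (d 0 (d 1 (d 1 (M.a k 1)))).fn (z, 0))
      • (1 : A)) + (1 / 2 : ℂ) • (d 0 (d 1 (M.e k))).fn (z, 0) := by
  simp only [Ga, gam, eta, tr, al, dv', d_add, d_sub, d_smul, d_one, smul_zero, add_zero, d_R,
    ev_R _ _ hz, fn_add, fn_sub, fn_smul, fn_one hz, d_sort]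
  push_cast
  simp only [smul_eq_mul]
  module

lemma ev_DdGa [CompleteSpace A] (j k : Fin 2) : (M.D j (d 0 (M.Ga k 1))).fn (z, 0) =
    (1 / 3 : ℂ) • (((M.D j (d 0 (d 0 (d 1 (M.a k 0))))).fn (z, 0)
      + (M.D j (d 0 (d 1 (d 1 (M.a k 1))))).fn (z, 0))
      • (1 : A)) + (1 / 2 : ℂ) • (M.D j (d 0 (d 1 (M.e k)))).fn (z, 0) := by
  simp only [Ga, gam, eta, tr, al, dv', d_add, d_sub, d_smul, d_one, smul_zero, add_zero, d_R,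
    VF.ev_DR _ _ _ _ hz, VF.D_add, VF.D_sub, VF.D_smul, VF.D_one,
    fn_add, fn_sub, fn_smul, fn_one hz, d_sort]
  push_cast
  simp only [smul_eq_mul]
  module

/-- `ε∂_0κ_0` -/
lemma ev_dka' [CompleteSpace A] : (d 0 (M.ka 0)).fn (z, 0) =
    (1 / 3 : ℂ) * ((M.D 0 (d 0 (d 0 (d 1 (M.a 1 0))))).fn (z, 0)
      - (M.D 1 (d 0 (d 0 (d 1 (M.a 0 0))))).fn (z, 0))
    + (1 / 2 : ℂ) * ((M.a2 z 0 0 0 1 * M.a2 z 1 0 0 0 + M.a2 z 0 1 0 1 * M.a2 z 1 0 0 1)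
      - (M.a2 z 1 0 0 1 * M.a2 z 0 0 0 0 + M.a2 z 1 1 0 1 * M.a2 z 0 0 0 1))
    - (1 / 4 : ℂ) * ((M.a2 z 0 0 0 0 * M.a2 z 1 0 0 1 + M.a2 z 0 0 0 1 * M.a2 z 1 0 0 0
        - M.a2 z 1 0 0 0 * M.a2 z 0 0 0 1 - M.a2 z 1 0 0 1 * M.a2 z 0 0 0 0)
      + (M.a2 z 0 0 0 1 * M.a2 z 1 1 0 1 + M.a2 z 0 0 1 1 * M.a2 z 1 1 0 0
        - M.a2 z 1 0 0 1 * M.a2 z 0 1 0 1 - M.a2 z 1 0 1 1 * M.a2 z 0 1 0 0)) := by
  rw [M.ev_dka hz]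
  simp only [RR, al, d_add, d_sub, d_mul, VF.d_D, d_R, VF.ev_DR _ _ _ _ hz, smul_eq_mul',
    ev_R _ _ hz, fn_add, fn_sub, fn_mul, M.a1 _ _ _ z hz, d_sort, a2, smul_zero, mul_zero,
    zero_mul, add_zero, zero_add]
  push_cast
  simp only [smul_eq_mul]
  ring

/-- **Value of `Φ` on the zero section.** -/
theorem value [CompleteSpace A] (P Q : Fin 2 → Fin 2 → Fin 2 → ℂ)
    (hP : ∀ i j l, P i j l = (1 / 2 : ℂ) * M.a2 z 0 i j l)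
    (hQ : ∀ i j l, Q i j l = (1 / 2 : ℂ) * M.a2 z 1 i j l) (p q : Fin 2 → ℂ)
    (hp : ∀ j, p j = P 0 0 j + P 1 1 j) (hq : ∀ j, q j = Q 0 0 j + Q 1 1 j) :
    M.Phi.fn (z, 0) = -(((p 0 * q 1 - p 1 * q 0)
        - (1 / 3 : ℂ) * (∑ i, ∑ l, (P i 0 l * Q l 1 i - P i 1 l * Q l 0 i))) • (1 : A)
      + (q 1 • M.e1 z 0 0 - q 0 • M.e1 z 0 1) + (p 0 • M.e1 z 1 1 - p 1 • M.e1 z 1 0)
      + (1 / 2 : ℂ) • ((M.e1 z 0 0 * M.e1 z 1 1 + M.e1 z 1 1 * M.e1 z 0 0)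
        - (M.e1 z 0 1 * M.e1 z 1 0 + M.e1 z 1 0 * M.e1 z 0 1))) := by
  have hη : ∀ k, (M.eta k).fn (z, 0) = 0 := fun k => by
    simp only [eta, dv', fn_add, fn_smul, M.a1 _ _ _ z hz, M.e0 _ z hz, add_zero, zero_smul]
  have hal : ∀ k i c, (M.al k i c).fn (z, 0) = 0 := fun k i c => by
    simp only [al, ev_R _ _ hz, M.a1 _ _ _ z hz, smul_zero]
  have sy : ∀ k i, M.a2 z k i 1 0 = M.a2 z k i 0 1 := fun k i => by
    simp only [a2, d_sort]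
  rw [M.ev_Phi hz]
  have hN : ∀ j k, (d 0 (M.N j (M.Ga k 1))).fn (z, 0) = (M.D j (d 0 (M.Ga k 1))).fn (z, 0)
      + (M.Ga k 1).fn (z, 0) * (d 0 (M.eta j)).fn (z, 0) := fun j k => by
    simp only [N, d_add, d_mul, VF.d_D, fn_add, fn_mul, fn_smul, M.a1 _ _ _ z hz, hη, mul_zero,
      zero_smul, add_zero, zero_add]
  have hde : ∀ j, (d 0 (M.eta j)).fn (z, 0) =
      (M.a2 z j 0 0 0 + M.a2 z j 1 0 1) • (1 : A) + M.e1 z j 0 := fun j => by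
    simp only [eta, dv', d_add, d_smul, d_one, smul_zero, add_zero, fn_add, fn_smul, fn_one hz,
      a2, e1]
  have hda : ∀ k i c, (d 0 (M.al k i c)).fn (z, 0) = (1 / 2 : ℂ) * M.a2 z k i 0 c := fun k i c => by
    simp only [al, d_R, ev_R _ _ hz, a2, smul_eq_mul]
    norm_num
  have hGa : ∀ k i, (M.Ga k i).fn (z, 0) =
      ((1 / 2 : ℂ) * (M.a2 z k 0 i 0 + M.a2 z k 1 i 1)) • (1 : A) + M.e1 z k i :=
    fun k i => M.ev_Ga hz k i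
  have h1 : (d 0 M.rho0).fn (z, 0) =
      -(((M.D 0 (d 0 (M.Ga 1 1))).fn (z, 0) + (M.Ga 1 1).fn (z, 0) * (d 0 (M.eta 0)).fn (z, 0))
        - ((M.D 1 (d 0 (M.Ga 0 1))).fn (z, 0) + (M.Ga 0 1).fn (z, 0) * (d 0 (M.eta 1)).fn (z, 0)))
      + ((d 0 (M.al 0 0 0)).fn (z, 0) • (M.Ga 1 1).fn (z, 0)
        - (d 0 (M.al 0 0 1)).fn (z, 0) • (M.Ga 1 0).fn (z, 0))
      - ((d 0 (M.al 1 0 0)).fn (z, 0) • (M.Ga 0 1).fn (z, 0)
        - (d 0 (M.al 1 0 1)).fn (z, 0) • (M.Ga 0 0).fn (z, 0))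
      - (d 0 (M.ka 0)).fn (z, 0) • (1 : A) := by
    rw [← hN, ← hN]
    simp only [rho0, d_add, d_sub, d_neg, d_smul, d_one, fn_add, fn_sub, fn_neg, fn_smul,
      fn_one hz, hal, zero_smul, smul_zero, add_zero]
  rw [h1]
  simp only [M.ev_dka' hz, M.ev_DdGa hz, hde, hda, hGa, Fin.sum_univ_two, hp, hq, hP, hQ, sy]
  simp only [add_mul, mul_add, smul_mul_assoc, mul_smul_comm, one_mul, mul_one, smul_add]
  linear_combination (norm := module) (-(2 / 3 : ℂ) * M.F1_0 hz) • (1 : A)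
    + (-(1 / 3 : ℂ) * M.F1_1 hz) • (1 : A) + (-(1 / 2 : ℂ)) • M.F2 hz

end

end Model

end Vale.Agent.P267.H993
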