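import Vale.Agent.P267.H993.Bridge
import Vale.Agent.P267.H993.Value
import Vale.Agent.P267.H734.Tilde

/-!
# P267, RRK-PHI: the value of helper734's `Ph1` on the zero section
-/

set_option linter.unusedSectionVars false
set_option linter.unusedVariables false

open scoped ContDiff Topology
open Set MeasureTheory Filter

noncomputable section

namespace Vale.Agent.P267.H993

open Vale.Agent.P267.H315 (V VV dbv wd)
open Vale.Agent.P267.H734 (SH HolW DD ee Ja gg TData TRel Inp aa ep1 dW1 dU Flat Rad Kos zs seg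
  al1 ga1 Ga1 R1 ka1 X1 Ph1)
open OO

section general

variable {B : Type} [NormedAddCommGroup B] [NormedSpace ℂ B]

lemma seg_zs (t : ℝ) (y : VV) : seg zs t y = (y.1, t • y.2) := by
  simp [seg]

lemma Rad_eq_RI (c : Fin 2) (F : VV → B) (y : VV) : Rad zs (ee c) F y = RI 0 (ds c F) y := by
  unfold Rad RI
  refine intervalIntegral.integral_congr fun t _ => ?_
  simp only [seg_zs, pow_zero, one_smul]
  rfl

lemma Kos_eq_RI (F G : VV → B) (y : VV) :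
    Kos zs F G y = RI 1 (fun y => ds 0 G y - ds 1 F y) y := by
  unfold Kos RI
  refine intervalIntegral.integral_congr fun t _ => ?_
  simp only [seg_zs, pow_one]
  rfl

end general

variable {A : Type} [NormedRing A] [NormedAlgebra ℂ A] [CompleteSpace A]
  {Ω : Set VV} {a : Fin 2 → VV → V} {ε : Fin 2 → VV → A}

/-- helper734's hypotheses are mine -/
theorem hyp_of_flat (h : Flat Ω a ε) : Hyp Ω a ε where
  star := h.star
  sh_a := h.sh_a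
  sh_e := h.sh_e
  a0 := h.a0
  a1 := h.a1
  e0 := h.e0
  flat_a := h.flat_a
  flat_e := h.flat_e

namespace Hyp

lemma fn_R_d {B : Type} [NormedRing B] [NormedAlgebra ℂ B] (h : Hyp Ω a ε) (c : Fin 2)
    (f : OO (domOf Ω h.star) B) {F : VV → B} (hF : ∀ y ∈ Ω, f.fn y = F y) {y : VV} (hy : y ∈ Ω) :
    (R 0 (d c f)).fn y = Rad zs (ee c) F y := by
  have hy' : y ∈ (domOf Ω h.star).W := hy
  rw [fn_R _ _ hy', Rad_eq_RI]
  refine RI_congr (domOf Ω h.star).st 0 (fun x hx => ?_) hy'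
  rw [fn_d _ _ hx]
  exact dv_congr (domOf Ω h.star).st.op hF hx _

lemma fn_R_kos {B : Type} [NormedRing B] [NormedAlgebra ℂ B] (h : Hyp Ω a ε)
    (f g : OO (domOf Ω h.star) B) {F G : VV → B} (hF : ∀ y ∈ Ω, f.fn y = F y)
    (hG : ∀ y ∈ Ω, g.fn y = G y) {y : VV} (hy : y ∈ Ω) :
    (R 1 (d 0 g - d 1 f)).fn y = Kos zs F G y := by
  have hy' : y ∈ (domOf Ω h.star).W := hy
  rw [fn_R _ _ hy', Kos_eq_RI]
  refine RI_congr (domOf Ω h.star).st 1 (fun x hx => ?_) hy'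
  rw [fn_sub, fn_d _ _ hx, fn_d _ _ hx]
  rw [show ds 0 g.fn x = ds 0 G x from dv_congr (domOf Ω h.star).st.op hG hx _,
    show ds 1 f.fn x = ds 1 F x from dv_congr (domOf Ω h.star).st.op hF hx _]

lemma fn_D' {B : Type} [NormedRing B] [NormedAlgebra ℂ B] (h : Hyp Ω a ε) (k : Fin 2)
    (f : OO (domOf Ω h.star) B) {F : VV → B} (hF : ∀ y ∈ Ω, f.fn y = F y) {y : VV} (hy : y ∈ Ω) :
    (h.vf.D k f).fn y = DD (a k) (ee k) F y := by
  rw [h.fn_D k f hy]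
  refine H734.DD_congr ?_
  filter_upwards [h.star.isOpen.mem_nhds hy] with x hx using hF x hx

variable (h : Hyp Ω a ε)
include h

lemma fn_al (k i c : Fin 2) {y : VV} (hy : y ∈ Ω) :
    (h.model.al k i c).fn y = al1 a k i c y :=
  h.fn_R_d c (h.ca k i) (fun y hy => h.fn_ca k i hy) hy

lemma fn_gam (k : Fin 2) {y : VV} (hy : y ∈ Ω) : (h.model.gam k).fn y = ga1 a ε k y := by
  have hy' : y ∈ (domOf Ω h.star).W := hy
  unfold Model.gam
  rw [fn_sub, fn_smul, fn_one hy', h.fn_eta k hy, Model.tr, fn_add, h.fn_al _ _ _ hy,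
    h.fn_al _ _ _ hy]
  unfold gg ga1
  module

lemma fn_Ga (k i : Fin 2) {y : VV} (hy : y ∈ Ω) :
    (h.model.Ga k i).fn y = Ga1 a ε k i y :=
  h.fn_R_d i (h.model.gam k) (fun y hy => h.fn_gam k hy) hy

lemma fn_RR (i c : Fin 2) {y : VV} (hy : y ∈ Ω) :
    (h.model.RR i c).fn y = R1 a i c y := by
  unfold Model.RR R1
  rw [fn_sub, fn_sub, fn_add, fn_sub, fn_sub, fn_mul, fn_mul, fn_mul, fn_mul, Fin.sum_univ_two]
  rw [show (h.model.D 0 (h.model.al 1 i c)).fn y = _ from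
      h.fn_D' 0 (h.model.al 1 i c) (fun y hy => h.fn_al 1 i c hy) hy,
    show (h.model.D 1 (h.model.al 0 i c)).fn y = _ from
      h.fn_D' 1 (h.model.al 0 i c) (fun y hy => h.fn_al 0 i c hy) hy]
  simp only [h.fn_al _ _ _ hy]

lemma fn_ka (i : Fin 2) {y : VV} (hy : y ∈ Ω) : (h.model.ka i).fn y = ka1 a i y := by
  unfold Model.ka ka1
  rw [fn_neg, h.fn_R_kos _ _ (fun y hy => h.fn_RR i 0 hy) (fun y hy => h.fn_RR i 1 hy) hy]

lemma fn_rho0 {y : VV} (hy : y ∈ Ω) : (h.model.rho0).fn y = X1 a ε 0 y := by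
  have hy' : y ∈ (domOf Ω h.star).W := hy
  simp only [Model.rho0, Model.N, fn_sub, fn_add, fn_mul, fn_neg, fn_smul, fn_one hy',
    h.fn_eta _ hy, h.fn_al _ _ _ hy, h.fn_Ga _ _ hy, h.fn_ka _ hy]
  rw [show (h.model.D 0 (h.model.Ga 1 1)).fn y = _ from
      h.fn_D' 0 (h.model.Ga 1 1) (fun y hy => h.fn_Ga 1 1 hy) hy,
    show (h.model.D 1 (h.model.Ga 0 1)).fn y = _ from
      h.fn_D' 1 (h.model.Ga 0 1) (fun y hy => h.fn_Ga 0 1 hy) hy]
  simp only [X1, wd, Pi.single_eq_same, one_smul,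
    Pi.single_eq_of_ne (one_ne_zero : (1 : Fin 2) ≠ 0), zero_smul, sub_zero]
  abel

lemma fn_rho1 {y : VV} (hy : y ∈ Ω) : (h.model.rho1).fn y = X1 a ε 1 y := by
  have hy' : y ∈ (domOf Ω h.star).W := hy
  simp only [Model.rho1, Model.N, fn_sub, fn_add, fn_mul, fn_smul, fn_one hy',
    h.fn_eta _ hy, h.fn_al _ _ _ hy, h.fn_Ga _ _ hy, h.fn_ka _ hy]
  rw [show (h.model.D 0 (h.model.Ga 1 0)).fn y = _ from
      h.fn_D' 0 (h.model.Ga 1 0) (fun y hy => h.fn_Ga 1 0 hy) hy,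
    show (h.model.D 1 (h.model.Ga 0 0)).fn y = _ from
      h.fn_D' 1 (h.model.Ga 0 0) (fun y hy => h.fn_Ga 0 0 hy) hy]
  simp only [X1, wd, Pi.single_eq_same, one_smul,
    Pi.single_eq_of_ne (zero_ne_one : (0 : Fin 2) ≠ 1), zero_smul, zero_sub]
  abel

lemma fn_Phi {y : VV} (hy : y ∈ Ω) : (h.model.Phi).fn y = Ph1 a ε y := by
  unfold Model.Phi Ph1
  rw [fn_neg, h.fn_R_kos _ _ (fun y hy => h.fn_rho1 hy)
    (fun y hy => by rw [fn_neg, h.fn_rho0 hy]) hy]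

/-- second jets of `a` -/
lemma a2_eq (k i j l : Fin 2) {z : V} (hz : (z, 0) ∈ Ω) : h.model.a2 z k i j l =
    fderiv ℝ (fun y => fderiv ℝ (a k) y (0, ee l)) (z, 0) (0, ee j) i := by
  have hz' : (z, 0) ∈ (domOf Ω h.star).W := hz
  unfold Model.a2
  rw [fn_d _ _ hz']
  unfold ds
  rw [dv_congr (domOf Ω h.star).st.op (F := (d l (h.model.a k i)).fn)
    (G := fun y => fderiv ℝ (a k) y (0, ee l) i)
    (fun y hy => h.fn_d_ca k i l hy) hz']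
  exact H734.fderiv_pi2 ((h.sh_a _ hz k).fderiv_apply (0, ee l)).differentiableAt _ i

/-- first jets of `ε` -/
lemma e1_eq (k j : Fin 2) {z : V} (hz : (z, 0) ∈ Ω) : h.model.e1 z k j =
    fderiv ℝ (ε k) (z, 0) (0, ee j) := by
  have hz' : (z, 0) ∈ (domOf Ω h.star).W := hz
  unfold Model.e1
  rw [fn_d _ _ hz']
  unfold ds
  rw [dv_congr (domOf Ω h.star).st.op (F := (h.model.e k).fn) (G := ε k)
    (fun y hy => h.fn_ce k hy) hz']
  rfl

end Hyp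

/-- **Value of `Φ` on the zero section** (helper734's `Ph1`). Here `P i j l = ½ ∂_j∂_l (a_0)_i`,
`Q i j l = ½ ∂_j∂_l (a_1)_i`, `p j = tr P_j`, `q j = tr Q_j`, `E k j = ∂_j ε_k`, all at `(z,0)`. -/
theorem ph1_value (h : Flat Ω a ε) {z : V} (hz : (z, (0 : V)) ∈ Ω)
    (P Q : Fin 2 → Fin 2 → Fin 2 → ℂ)
    (hP : ∀ i j l, P i j l =
      (1 / 2 : ℂ) * fderiv ℝ (fun y => fderiv ℝ (a 0) y (0, ee l)) (z, 0) (0, ee j) i)
    (hQ : ∀ i j l, Q i j l =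
      (1 / 2 : ℂ) * fderiv ℝ (fun y => fderiv ℝ (a 1) y (0, ee l)) (z, 0) (0, ee j) i)
    (p q : Fin 2 → ℂ) (hp : ∀ j, p j = P 0 0 j + P 1 1 j) (hq : ∀ j, q j = Q 0 0 j + Q 1 1 j)
    (E : Fin 2 → Fin 2 → A) (hE : ∀ k j, E k j = fderiv ℝ (ε k) (z, 0) (0, ee j)) :
    Ph1 a ε (z, 0) = -(((p 0 * q 1 - p 1 * q 0)
        - (1 / 3 : ℂ) * (∑ i, ∑ l, (P i 0 l * Q l 1 i - P i 1 l * Q l 0 i))) • (1 : A)
      + (q 1 • E 0 0 - q 0 • E 0 1) + (p 0 • E 1 1 - p 1 • E 1 0)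
      + (1 / 2 : ℂ) • ((E 0 0 * E 1 1 + E 1 1 * E 0 0) - (E 0 1 * E 1 0 + E 1 0 * E 0 1))) := by
  have h' := hyp_of_flat h
  have hz' : (z, (0 : V)) ∈ (domOf Ω h'.star).W := hz
  have v := h'.model.value hz' P Q (fun i j l => by rw [h'.a2_eq 0 i j l hz, hP])
    (fun i j l => by rw [h'.a2_eq 1 i j l hz, hQ]) p q hp hq
  rw [← h'.fn_Phi hz, v]
  simp only [h'.e1_eq _ _ hz, ← hE]

/-- The value for the data of helper734's `Inp`. -/
theorem ph1_value_inp {Ω : Set V} {s : VV → V} {τ : VV → A} (h : Inp Ω s τ) {z : V} (hz : z ∈ Ω)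
    (P Q : Fin 2 → Fin 2 → Fin 2 → ℂ)
    (hP : ∀ i j l, P i j l =
      (1 / 2 : ℂ) * fderiv ℝ (fun y => fderiv ℝ (aa Ω s τ 0) y (0, ee l)) (z, 0) (0, ee j) i)
    (hQ : ∀ i j l, Q i j l =
      (1 / 2 : ℂ) * fderiv ℝ (fun y => fderiv ℝ (aa Ω s τ 1) y (0, ee l)) (z, 0) (0, ee j) i)
    (p q : Fin 2 → ℂ) (hp : ∀ j, p j = P 0 0 j + P 1 1 j) (hq : ∀ j, q j = Q 0 0 j + Q 1 1 j)
    (E : Fin 2 → Fin 2 → A) (hE : ∀ k j, E k j = fderiv ℝ (ep1 Ω s τ k) (z, 0) (0, ee j)) :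
    Ph1 (aa Ω s τ) (ep1 Ω s τ) (z, 0) = -(((p 0 * q 1 - p 1 * q 0)
        - (1 / 3 : ℂ) * (∑ i, ∑ l, (P i 0 l * Q l 1 i - P i 1 l * Q l 0 i))) • (1 : A)
      + (q 1 • E 0 0 - q 0 • E 0 1) + (p 0 • E 1 1 - p 1 • E 1 0)
      + (1 / 2 : ℂ) • ((E 0 0 * E 1 1 + E 1 1 * E 0 0) - (E 0 1 * E 1 0 + E 1 0 * E 0 1))) :=
  ph1_value h.flat (h.mem_dW1 hz) P Q hP hQ p q hp hq E hE

end Vale.Agent.P267.H993
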