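import Vale.Agent.P267.H993.Model
import Vale.Agent.P267.H734.Comp

/-!
# P267, package RR-ALG, part 7: helper734's relations `TRel` from the local model
-/

set_option linter.unusedSectionVars false
set_option linter.unusedVariables false

open scoped ContDiff Topology
open Set MeasureTheory Filter

noncomputable section

namespace Vale.Agent.P267.H993

open Vale.Agent.P267.H315 (V VV dbv wd)
open Vale.Agent.P267.H734 (SH HolW DD ee Ja gg TData TRel Inp aa ep1 dW1 dU)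
open OO

/-- helper734's star shaped sets -/
def domOf (Ω : Set VV) (h : H734.Star (fun _ : V => (0 : V)) Ω) : Dom where
  W := Ω
  st := ⟨h.isOpen, fun x hx t ht => by
    have := h.seg_mem x hx t ht
    simpa [H734.seg] using this⟩

section general

variable {B : Type} [NormedAddCommGroup B] [NormedSpace ℂ B]

lemma es_eq (j : Fin 2) : es j = (0, ee j) := rfl

lemma ies_eq (j : Fin 2) : ies j = (0, Complex.I • ee j) := by
  simp [ies, ee, ← Pi.single_smul]

lemma iez_eq (j : Fin 2) : iez j = Complex.I • (ez j) := by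
  simp [iez, ez, ← Pi.single_smul]

lemma holOn_of_SH {Ω : Set VV} {F : VV → B} (h : ∀ y ∈ Ω, SH F y) : HolOn Ω F := by
  refine ⟨fun y hy => (h y hy).contDiffAt.contDiffWithinAt, fun y hy j => ?_⟩
  unfold dv
  rw [ies_eq, es_eq]
  exact (h y hy).hol (ee j)

lemma sh_of_holOn {Ω : Set VV} (hΩ : IsOpen Ω) {F : VV → B} (h : HolOn Ω F) :
    ∀ y ∈ Ω, SH F y := by
  intro y hy
  filter_upwards [hΩ.mem_nhds hy] with x hx
  refine ⟨h.sm.contDiffAt (hΩ.mem_nhds hx), fun v => ?_⟩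
  rw [fderiv_snd h hx, fderiv_snd h hx]
  simp only [Pi.smul_apply, smul_eq_mul, smul_add, mul_smul]

lemma dzb_eq (k : Fin 2) (F : VV → B) (x : VV) : dzb k F x = dbv (ee k, 0) F x := by
  unfold dzb dbv dv
  rw [iez_eq]
  rfl

lemma DD_eq {Ω : Set VV} {F : VV → B} (h : HolOn Ω F) {y : VV} (hy : y ∈ Ω) (a : VV → V)
    (k : Fin 2) : DD a (ee k) F y = dzb k F y + (a y 0 • ds 0 F y + a y 1 • ds 1 F y) := by
  unfold DD
  rw [dzb_eq, fderiv_snd h hy]

end general

variable {A : Type} [NormedRing A] [NormedAlgebra ℂ A] [CompleteSpace A]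

/-- The hypotheses on `a_k`, `ε_k`. -/
structure Hyp (Ω : Set VV) (a : Fin 2 → VV → V) (ε : Fin 2 → VV → A) : Prop where
  star : H734.Star (fun _ : V => (0 : V)) Ω
  sh_a : ∀ y ∈ Ω, ∀ k, SH (a k) y
  sh_e : ∀ y ∈ Ω, ∀ k, SH (ε k) y
  a0 : ∀ z, (z, (0 : V)) ∈ Ω → ∀ k, a k (z, 0) = 0
  a1 : ∀ z, (z, (0 : V)) ∈ Ω → ∀ k i c, Ja a k i c (z, 0) = 0
  e0 : ∀ z, (z, (0 : V)) ∈ Ω → ∀ k, ε k (z, 0) = 0
  flat_a : ∀ y ∈ Ω, DD (a 0) (ee 0) (a 1) y = DD (a 1) (ee 1) (a 0) y
  flat_e : ∀ y ∈ Ω, DD (a 0) (ee 0) (ε 1) y - DD (a 1) (ee 1) (ε 0) y =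
    ε 0 y * ε 1 y - ε 1 y * ε 0 y

namespace Hyp

variable {Ω : Set VV} {a : Fin 2 → VV → V} {ε : Fin 2 → VV → A}

/-- the components of `a` in the ring -/
def ca (h : Hyp Ω a ε) (k i : Fin 2) : OO (domOf Ω h.star) ℂ :=
  OO.of (fun y => a k y i) (holOn_of_SH fun y hy => (h.sh_a y hy k).pi i)

/-- `ε` in the ring -/
def ce (h : Hyp Ω a ε) (k : Fin 2) : OO (domOf Ω h.star) A :=
  OO.of (ε k) (holOn_of_SH fun y hy => h.sh_e y hy k)

lemma fn_ca (h : Hyp Ω a ε) (k i : Fin 2) {y : VV} (hy : y ∈ Ω) :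
    (h.ca k i).fn y = a k y i := of_fn (W := domOf Ω h.star) _ _ hy

lemma fn_ce (h : Hyp Ω a ε) (k : Fin 2) {y : VV} (hy : y ∈ Ω) :
    (h.ce k).fn y = ε k y := of_fn (W := domOf Ω h.star) _ _ hy

lemma dv_ca (h : Hyp Ω a ε) (k i : Fin 2) {y : VV} (hy : y ∈ Ω) (v : VV) :
    dv v (h.ca k i).fn y = fderiv ℝ (a k) y v i := by
  unfold ca
  rw [dv_of (W := domOf Ω h.star) _ _ hy]
  unfold dv
  exact H734.fderiv_pi2 (h.sh_a y hy k).differentiableAt v i

lemma fn_d_ca (h : Hyp Ω a ε) (k i c : Fin 2) {y : VV} (hy : y ∈ Ω) :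
    (d c (h.ca k i)).fn y = Ja a k i c y := by
  rw [fn_d (W := domOf Ω h.star) _ _ hy]
  unfold ds
  rw [h.dv_ca k i hy]
  rfl

/-- The vector fields. -/
def vf (h : Hyp Ω a ε) : VF (domOf Ω h.star) where
  a := h.ca
  a0 := fun k i z hz => by
    rw [h.fn_ca k i hz, h.a0 z hz k]
    rfl
  a1 := fun k i j z hz => by
    rw [h.fn_d_ca k i j hz, h.a1 z hz k i j]

lemma fn_D {B : Type} [NormedRing B] [NormedAlgebra ℂ B] (h : Hyp Ω a ε) (k : Fin 2)
    (f : OO (domOf Ω h.star) B) {y : VV} (hy : y ∈ Ω) :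
    (h.vf.D k f).fn y = DD (a k) (ee k) f.fn y := by
  have hy' : y ∈ (domOf Ω h.star).W := hy
  rw [DD_eq f.fn_hol hy']
  unfold VF.D
  rw [fn_add, fn_add, fn_smul, fn_smul, fn_dz _ _ hy', fn_d _ _ hy', fn_d _ _ hy']
  rw [show (h.vf.a k 0).fn y = a k y 0 from h.fn_ca k 0 hy,
    show (h.vf.a k 1).fn y = a k y 1 from h.fn_ca k 1 hy]

/-- The local model. -/
def model (h : Hyp Ω a ε) : Model (domOf Ω h.star) A where
  toVF := h.vf
  e := h.ce
  e0 := fun k z hz => by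
    rw [h.fn_ce k hz, h.e0 z hz k]
  flat_a := fun i => ext_fn fun y hy => by
    rw [h.fn_D _ _ hy, h.fn_D _ _ hy]
    have e : ∀ j k, DD (a j) (ee j) (h.ca k i).fn y = DD (a j) (ee j) (a k) y i := by
      intro j k
      unfold DD dbv
      simp only [Pi.add_apply, Pi.smul_apply, ← h.dv_ca k i hy]
      rfl
    exact (e 0 1).trans ((congrFun (h.flat_a y hy) i).trans (e 1 0).symm)
  flat_e := ext_fn fun y hy => by
    rw [fn_sub, fn_sub, fn_mul, fn_mul, h.fn_D _ _ hy, h.fn_D _ _ hy, h.fn_ce _ hy, h.fn_ce _ hy]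
    have e : ∀ j k, DD (a j) (ee j) (h.ce k).fn y = DD (a j) (ee j) (ε k) y := by
      intro j k
      have e1 : (h.ce k).fn =ᶠ[𝓝 y] ε k := by
        filter_upwards [h.star.isOpen.mem_nhds hy] with x hx using h.fn_ce k hx
      unfold DD
      rw [H315.dbv_congr e1, e1.fderiv_eq]
    rw [e, e]
    exact h.flat_e y hy

/-- `α, Γ, κ, Φ` -/
def td (h : Hyp Ω a ε) : TData A where
  al k i c := (h.model.al k i c).fn
  Ga k i := (h.model.Ga k i).fn
  ka i := (h.model.ka i).fn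
  Ph := h.model.Phi.fn

lemma sh_fn {B : Type} [NormedRing B] [NormedAlgebra ℂ B] (h : Hyp Ω a ε)
    (f : OO (domOf Ω h.star) B) : ∀ y ∈ Ω, SH f.fn y :=
  sh_of_holOn (Ω := (domOf Ω h.star).W) h.star.isOpen f.fn_hol

lemma fn_eta (h : Hyp Ω a ε) (k : Fin 2) {y : VV} (hy : y ∈ Ω) :
    (h.model.eta k).fn y = gg a ε k y := by
  have hy' : y ∈ (domOf Ω h.star).W := hy
  unfold Model.eta Model.dv'
  rw [fn_add, fn_smul, fn_add, fn_one hy']
  rw [show (d 0 (h.model.a k 0)).fn y = Ja a k 0 0 y from h.fn_d_ca k 0 0 hy,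
    show (d 1 (h.model.a k 1)).fn y = Ja a k 1 1 y from h.fn_d_ca k 1 1 hy,
    show (h.model.e k).fn y = ε k y from h.fn_ce k hy]
  rfl

/-- **the relations in the `(z,s)` model** -/
theorem trel (h : Hyp Ω a ε) : TRel h.td Ω a ε where
  sh_al := fun y hy k i c => h.sh_fn _ y hy
  sh_Ga := fun y hy k i => h.sh_fn _ y hy
  sh_ka := fun y hy i => h.sh_fn _ y hy
  sh_Ph := fun y hy => h.sh_fn _ y hy
  t1 := fun y hy k i => by
    have hy' : y ∈ (domOf Ω h.star).W := hy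
    have e := congrArg (fun f => OO.fn f y) (h.model.a_eq k i)
    simp only [fn_add, fn_mul, fn_s _ hy'] at e
    rw [Fin.sum_univ_two, ← h.fn_ca k i hy]
    exact e
  t2 := fun y hy k => by
    have hy' : y ∈ (domOf Ω h.star).W := hy
    have e := congrArg (fun f => OO.fn f y) (h.model.eta_eq k)
    rw [← h.model.Ga_s k] at e
    simp only [fn_add, fn_smul, fn_s _ hy', fn_one hy', h.fn_eta k hy, Model.tr] at e
    rw [e, add_comm]
    rfl
  t3 := fun y hy i c => by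
    have hy' : y ∈ (domOf Ω h.star).W := hy
    have e : (h.model.RR i c).fn y = - (h.model.ka i).fn y * (![- y.2 1, y.2 0] : Fin 2 → ℂ) c := by
      fin_cases c
      · have e := congrArg (fun f => OO.fn f y) (h.model.RR_0 i)
        simp only [fn_mul, fn_s _ hy'] at e
        simp only [Fin.zero_eta, Fin.isValue, Matrix.cons_val_zero]
        rw [e]
        ring
      · have e := congrArg (fun f => OO.fn f y) (h.model.RR_1 i)
        simp only [fn_mul, fn_neg, fn_s _ hy'] at e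
        simp only [Fin.mk_one, Fin.isValue, Matrix.cons_val_one]
        rw [e]
        simp only [Matrix.cons_val_fin_one]
        ring
    rw [show DD (a 0) (ee 0) (h.td.al 1 i c) y = _ from (h.fn_D 0 (h.model.al 1 i c) hy).symm,
      show DD (a 1) (ee 1) (h.td.al 0 i c) y = _ from (h.fn_D 1 (h.model.al 0 i c) hy).symm,
      Fin.sum_univ_two]
    refine Eq.trans ?_ e
    simp only [Model.RR, fn_sub, fn_add, fn_mul]
    rfl
  t4 := fun y hy i => by
    have hy' : y ∈ (domOf Ω h.star).W := hy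
    fin_cases i
    · have e := congrArg (fun f => OO.fn f y) (h.model.rho0_eq)
      simp only [fn_smul, fn_s _ hy'] at e
      refine Eq.trans ?_ e
      simp only [Model.rho0, Model.N, fn_sub, fn_add, fn_mul, fn_neg, fn_smul, fn_one hy',
        h.fn_eta _ hy, wd]
      rw [show (h.model.D 0 (h.model.Ga 1 1)).fn y = _ from h.fn_D 0 _ hy,
        show (h.model.D 1 (h.model.Ga 0 1)).fn y = _ from h.fn_D 1 _ hy]
      simp only [td, Fin.zero_eta, Fin.isValue, Pi.single_eq_same, one_smul,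
        Pi.single_eq_of_ne (one_ne_zero : (1 : Fin 2) ≠ 0), zero_smul, sub_zero]
      abel
    · have e := congrArg (fun f => OO.fn f y) (h.model.rho1_eq)
      simp only [fn_smul, fn_s _ hy'] at e
      refine Eq.trans ?_ e
      simp only [Model.rho1, Model.N, fn_sub, fn_add, fn_mul, fn_smul, fn_one hy',
        h.fn_eta _ hy, wd]
      rw [show (h.model.D 0 (h.model.Ga 1 0)).fn y = _ from h.fn_D 0 _ hy,
        show (h.model.D 1 (h.model.Ga 0 0)).fn y = _ from h.fn_D 1 _ hy]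
      simp only [td, Fin.mk_one, Fin.isValue, Pi.single_eq_same, one_smul,
        Pi.single_eq_of_ne (zero_ne_one : (0 : Fin 2) ≠ 1), zero_smul, zero_sub]
      abel

end Hyp

/-- The data of helper734's `Inp` satisfy the hypotheses. -/
theorem hyp_of_inp {Ω : Set V} {s : VV → V} {τ : VV → A} (h : Inp Ω s τ) :
    Hyp (dW1 Ω s τ) (aa Ω s τ) (ep1 Ω s τ) where
  star := h.star
  sh_a := fun y hy k => h.sh_aa k hy
  sh_e := fun y hy k => h.sh_ep1 k hy
  a0 := fun z hz k => h.aa_zero k (h.dW1_fst hz)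
  a1 := fun z hz k i c => h.Ja_zero k i c (h.dW1_fst hz)
  e0 := fun z hz k => h.ep1_zero k (h.dW1_fst hz)
  flat_a := fun y hy => h.flat_aa hy 0 1
  flat_e := fun y hy => h.flat_ep1 hy 0 1

/-- **Construction of the data** (helper734's `TRel`) for every input `(s, τ)`. -/
theorem trel_of_inp {Ω : Set V} {s : VV → V} {τ : VV → A} (h : Inp Ω s τ) :
    TRel (hyp_of_inp h).td (dW1 Ω s τ) (aa Ω s τ) (ep1 Ω s τ) := (hyp_of_inp h).trel

end Vale.Agent.P267.H993
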