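import Vale.Agent.P267.H315.Db
import Mathlib.Analysis.Calculus.FDeriv.Symmetric
import Mathlib.Analysis.Calculus.ContDiff.Operations

/-!
# P267, package RR-ALG, part 2: smooth functions of `(z, s)`, holomorphic in `s`
-/

open scoped ContDiff

noncomputable section

namespace Vale.Agent.P267.H993

open Vale.Agent.P267.H315 (V VV dbv)

section basic

variable {E : Type*} [NormedAddCommGroup E] [NormedSpace ℝ E]
  {B : Type*} [NormedAddCommGroup B] [NormedSpace ℝ B]
  {W : Set E} {F G : E → B}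

/-- directional derivative -/
def dv (v : E) (F : E → B) (x : E) : B := fderiv ℝ F x v

lemma dv_contDiffOn (hW : IsOpen W) (hF : ContDiffOn ℝ ∞ F W) (v : E) :
    ContDiffOn ℝ ∞ (dv v F) W := by
  have h : ContDiffOn ℝ ∞ (fderiv ℝ F) W := hF.fderiv_of_isOpen hW (by simp)
  exact h.clm_apply contDiffOn_const

lemma dv_comm (hW : IsOpen W) (hF : ContDiffOn ℝ ∞ F W) {x : E} (hx : x ∈ W) (v w : E) :
    dv w (dv v F) x = dv v (dv w F) x := by
  have hat : ContDiffAt ℝ ∞ F x := hF.contDiffAt (hW.mem_nhds hx)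
  have hs : IsSymmSndFDerivAt ℝ F x := hat.isSymmSndFDerivAt (by simp; norm_cast)
  have hd : DifferentiableAt ℝ (fderiv ℝ F) x :=
    (hat.fderiv_right (m := 1) (by norm_cast)).differentiableAt (by norm_num)
  have key : ∀ a b : E, dv b (dv a F) x = fderiv ℝ (fderiv ℝ F) x b a := by
    intro a b
    unfold dv
    have := fderiv_clm_apply hd (differentiableAt_const (c := a) (x := x))
    simp only [this]
    simp
  rw [key, key, hs.eq]

lemma dv_congr (hW : IsOpen W) (h : ∀ x ∈ W, F x = G x) {x : E} (hx : x ∈ W) (v : E) :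
    dv v F x = dv v G x := by
  unfold dv
  rw [Filter.EventuallyEq.fderiv_eq (Filter.eventuallyEq_of_mem (hW.mem_nhds hx) h)]

lemma dv_add {x : E} (hF : DifferentiableAt ℝ F x) (hG : DifferentiableAt ℝ G x) (v : E) :
    dv v (fun x => F x + G x) x = dv v F x + dv v G x := by
  unfold dv
  rw [fderiv_fun_add hF hG]
  rfl

lemma dv_neg {x : E} (v : E) : dv v (fun x => -F x) x = -dv v F x := by
  unfold dv
  rw [fderiv_fun_neg]
  rfl

end basic

section cplx

variable {E : Type*} [NormedAddCommGroup E] [NormedSpace ℝ E]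
  {B : Type*} [NormedAddCommGroup B] [NormedSpace ℂ B]

lemma dv_smul {f : E → ℂ} {G : E → B} {x : E} (hF : DifferentiableAt ℝ f x)
    (hG : DifferentiableAt ℝ G x) (v : E) :
    dv v (fun x => f x • G x) x = dv v f x • G x + f x • dv v G x := by
  unfold dv
  rw [fderiv_fun_smul hF hG]
  simp only [add_apply, smul_apply, ContinuousLinearMap.smulRight_apply]
  rw [add_comm]

lemma dv_csmul {G : E → B} {x : E} (c : ℂ) (hG : DifferentiableAt ℝ G x) (v : E) :
    dv v (fun x => c • G x) x = c • dv v G x := by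
  rw [dv_smul (differentiableAt_const c) hG]
  unfold dv
  simp

lemma dv_mul {A : Type*} [NormedRing A] [NormedAlgebra ℂ A] {F G : E → A} {x : E}
    (hF : DifferentiableAt ℝ F x) (hG : DifferentiableAt ℝ G x) (v : E) :
    dv v (fun x => F x * G x) x = dv v F x * G x + F x * dv v G x := by
  unfold dv
  rw [fderiv_fun_mul' hF hG]
  simp only [add_apply, smul_apply, smul_eq_mul,
    MulOpposite.smul_eq_mul_unop, MulOpposite.unop_op]
  rw [add_comm]

end cplx


/-- the direction of `s_j` -/
def es (j : Fin 2) : VV := (0, Pi.single j 1)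

/-- `i` times the direction of `s_j` -/
def ies (j : Fin 2) : VV := (0, Pi.single j Complex.I)

/-- the direction of `z_k` -/
def ez (k : Fin 2) : VV := (Pi.single k 1, 0)

/-- `i` times the direction of `z_k` -/
def iez (k : Fin 2) : VV := (Pi.single k Complex.I, 0)

variable {B : Type*} [NormedAddCommGroup B] [NormedSpace ℂ B]

/-- `∂/∂s_j` (for functions holomorphic in `s`) -/
def ds (j : Fin 2) (F : VV → B) : VV → B := dv (es j) F

/-- `∂/∂z̄_k` at fixed `s` -/
def dzb (k : Fin 2) (F : VV → B) (x : VV) : B :=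
  (1 / 2 : ℂ) • (dv (ez k) F x + Complex.I • dv (iez k) F x)

/-- Smooth on `W`, holomorphic in `s`. -/
structure HolOn (W : Set VV) (F : VV → B) : Prop where
  sm : ContDiffOn ℝ ∞ F W
  hol : ∀ x ∈ W, ∀ j, dv (ies j) F x = Complex.I • dv (es j) F x

namespace HolOn

variable {W : Set VV} {F G : VV → B}

lemma congr (hW : IsOpen W) (hF : HolOn W F) (h : ∀ x ∈ W, G x = F x) : HolOn W G := by
  refine ⟨hF.sm.congr h, fun x hx j => ?_⟩
  rw [dv_congr hW h hx, dv_congr hW h hx, hF.hol x hx j]

lemma diffAt (hW : IsOpen W) (hF : HolOn W F) {x : VV} (hx : x ∈ W) : DifferentiableAt ℝ F x :=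
  (hF.sm.contDiffAt (hW.mem_nhds hx)).differentiableAt (by simp)

lemma const (c : B) : HolOn W (fun _ : VV => c) :=
  ⟨contDiffOn_const, fun x _ j => by simp [dv]⟩

lemma add (hW : IsOpen W) (hF : HolOn W F) (hG : HolOn W G) : HolOn W (fun x => F x + G x) := by
  refine ⟨hF.sm.add hG.sm, fun x hx j => ?_⟩
  have h1 := hF.diffAt hW hx
  have h2 := hG.diffAt hW hx
  have := hF.hol x hx j
  have := hG.hol x hx j
  unfold dv at *
  rw [fderiv_fun_add h1 h2]
  simp only [add_apply, smul_add, *]

lemma neg (hF : HolOn W F) : HolOn W (fun x => -F x) := by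
  refine ⟨hF.sm.neg, fun x hx j => ?_⟩
  have := hF.hol x hx j
  unfold dv at *
  rw [fderiv_fun_neg]
  simp only [neg_apply, smul_neg, *]

lemma smul (hW : IsOpen W) {f : VV → ℂ} (hf : HolOn W f) (hF : HolOn W F) :
    HolOn W (fun x => f x • F x) := by
  refine ⟨hf.sm.smul hF.sm, fun x hx j => ?_⟩
  have h1 := hf.diffAt hW hx
  have h2 := hF.diffAt hW hx
  have e1 := hf.hol x hx j
  have e2 := hF.hol x hx j
  unfold dv at *
  rw [fderiv_fun_smul h1 h2]
  simp only [add_apply, smul_apply,
    ContinuousLinearMap.smulRight_apply, e1, e2, smul_eq_mul]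
  module

lemma mul {A : Type*} [NormedRing A] [NormedAlgebra ℂ A] {F G : VV → A}
    (hW : IsOpen W) (hF : HolOn W F) (hG : HolOn W G) : HolOn W (fun x => F x * G x) := by
  refine ⟨hF.sm.mul hG.sm, fun x hx j => ?_⟩
  have h1 := hF.diffAt hW hx
  have h2 := hG.diffAt hW hx
  have e1 := hF.hol x hx j
  have e2 := hG.hol x hx j
  unfold dv at *
  rw [fderiv_fun_mul' h1 h2]
  simp only [add_apply, smul_apply, smul_eq_mul,
    MulOpposite.smul_eq_mul_unop, MulOpposite.unop_op, e1, e2, smul_add, mul_smul_comm,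
    smul_mul_assoc]

/-- Directional derivatives preserve `HolOn`. -/
lemma dv (hW : IsOpen W) (hF : HolOn W F) (v : VV) : HolOn W (dv v F) := by
  refine ⟨dv_contDiffOn hW hF.sm v, fun x hx j => ?_⟩
  rw [dv_comm hW hF.sm hx v (ies j), dv_comm hW hF.sm hx v (es j)]
  rw [dv_congr hW (fun y hy => hF.hol y hy j) hx]
  have := (dv_contDiffOn hW hF.sm (es j)).contDiffAt (hW.mem_nhds hx)
  unfold H993.dv at *
  rw [fderiv_fun_const_smul (this.differentiableAt (by simp))]
  rfl

lemma ds (hW : IsOpen W) (hF : HolOn W F) (j : Fin 2) : HolOn W (ds j F) := hF.dv hW _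

lemma dzb (hW : IsOpen W) (hF : HolOn W F) (k : Fin 2) : HolOn W (dzb k F) :=
  (const _).smul hW ((hF.dv hW _).add hW ((const _).smul hW (hF.dv hW _)))

end HolOn

end Vale.Agent.P267.H993
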