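import Vale.Agent.P267.H993.Op

/-!
# P267, package RR-ALG, part 6: the local model, construction of `α, Γ, κ, Φ`
-/

open scoped ContDiff Topology
open Set MeasureTheory

noncomputable section

namespace Vale.Agent.P267.H993

open Vale.Agent.P267.H315 (V VV dbv)

universe u

open OO

/-- The vector fields `a_k` (vertical, `O(s²)`). -/
structure VF (W : Dom) where
  a : Fin 2 → Fin 2 → OO W ℂ
  a0 : ∀ k i z, (z, 0) ∈ W.W → (a k i).fn (z, 0) = 0
  a1 : ∀ k i j z, (z, 0) ∈ W.W → (d j (a k i)).fn (z, 0) = 0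

namespace VF

variable {W : Dom} (M : VF W) {A : Type u} [NormedRing A] [NormedAlgebra ℂ A]

/-- `D_k = ∂_{z̄_k} + a_k · ∂_s` -/
def D (k : Fin 2) (f : OO W A) : OO W A := dz k f + (M.a k 0 • d 0 f + M.a k 1 • d 1 f)

lemma D_add (k : Fin 2) (f g : OO W A) : M.D k (f + g) = M.D k f + M.D k g := by
  simp only [D, dz_add, d_add]
  module

lemma D_neg (k : Fin 2) (f : OO W A) : M.D k (-f) = -M.D k f := by
  simp only [D, dz_neg, d_neg]
  module

lemma D_sub (k : Fin 2) (f g : OO W A) : M.D k (f - g) = M.D k f - M.D k g := by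
  simp only [D, dz_sub, d_sub]
  module

lemma D_zero (k : Fin 2) : M.D k (0 : OO W A) = 0 := by
  simp only [D, dz_zero, d_zero]
  module

lemma D_one (k : Fin 2) : M.D k (1 : OO W A) = 0 := by
  simp only [D, dz_one, d_one]
  module

lemma D_csmul (k : Fin 2) (c : ℂ) (f : OO W A) : M.D k (c • f) = c • M.D k f := by
  have h : ∀ (x : OO W ℂ) (y : OO W A), x • (c • y) = c • (x • y) := fun x y =>
    ext_fn fun p _ => by rw [fn_smul, fn_csmul, fn_csmul, fn_smul, smul_comm]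
  simp only [D, dz_csmul, d_csmul, h, smul_add]

lemma D_mul (k : Fin 2) (f g : OO W A) : M.D k (f * g) = M.D k f * g + f * M.D k g := by
  simp only [D, dz_mul, d_mul, add_mul, mul_add, smul_add, OO.smul_mul, OO.mul_smul']
  abel

lemma D_smul (k : Fin 2) (f : OO W ℂ) (g : OO W A) :
    M.D k (f • g) = M.D k f • g + f • M.D k g := by
  simp only [D, dz_smul, d_smul, smul_eq_mul']
  module

/-- the scalar version -/
lemma D_scal (k : Fin 2) (f : OO W ℂ) :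
    M.D k f = dz k f + (M.a k 0 * d 0 f + M.a k 1 * d 1 f) := by
  simp only [D, smul_eq_mul']

lemma D_s (k i : Fin 2) : M.D k (s W i) = M.a k i := by
  rw [D_scal]
  fin_cases i <;> simp [dz_s]

lemma d_D (j k : Fin 2) (f : OO W A) :
    d j (M.D k f) = M.D k (d j f) + (d j (M.a k 0) • d 0 f + d j (M.a k 1) • d 1 f) := by
  simp only [D, d_add, d_smul, d_dz, d_d j]
  module

end VF

/-- The local model `(a, e)`: flat. -/
structure Model (W : Dom) (A : Type u) [NormedRing A] [NormedAlgebra ℂ A] extends VF W where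
  e : Fin 2 → OO W A
  e0 : ∀ k z, (z, 0) ∈ W.W → (e k).fn (z, 0) = 0
  flat_a : ∀ i, toVF.D 0 (a 1 i) = toVF.D 1 (a 0 i)
  flat_e : toVF.D 0 (e 1) - toVF.D 1 (e 0) = e 0 * e 1 - e 1 * e 0

namespace Model

variable {W : Dom} {A : Type u} [NormedRing A] [NormedAlgebra ℂ A] (M : Model W A)

/-- divergence of `a_k` -/
def dv' (k : Fin 2) : OO W ℂ := d 0 (M.a k 0) + d 1 (M.a k 1)

/-- `η_k = div a_k + e_k` -/
def eta (k : Fin 2) : OO W A := M.dv' k • (1 : OO W A) + M.e k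

lemma D_div : M.D 0 (M.dv' 1) = M.D 1 (M.dv' 0) := by
  have h0 := congrArg (d 0) (M.flat_a 0)
  have h1 := congrArg (d 1) (M.flat_a 1)
  simp only [VF.d_D, smul_eq_mul'] at h0 h1
  simp only [dv', VF.D_add]
  linear_combination h0 + h1

lemma flat_eta : M.D 0 (M.eta 1) - M.D 1 (M.eta 0) = M.eta 0 * M.eta 1 - M.eta 1 * M.eta 0 := by
  have h := M.flat_e
  have h1 : M.D 0 (M.eta 1) - M.D 1 (M.eta 0) = M.D 0 (M.e 1) - M.D 1 (M.e 0) := by
    simp only [eta, VF.D_add, VF.D_smul, VF.D_one, D_div]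
    module
  have h2 : M.eta 0 * M.eta 1 - M.eta 1 * M.eta 0 = M.e 0 * M.e 1 - M.e 1 * M.e 0 := by
    simp only [eta, add_mul, mul_add, OO.smul_mul, OO.mul_smul', one_mul, mul_one]
    module
  rw [h1, h2, h]

/-- `α_k` -/
def al (k i c : Fin 2) : OO W ℂ := R 0 (d c (M.a k i))

/-- trace of `α_k` -/
def tr (k : Fin 2) : OO W ℂ := M.al k 0 0 + M.al k 1 1

/-- `γ_k = η_k - tr α_k` -/
def gam (k : Fin 2) : OO W A := M.eta k - M.tr k • (1 : OO W A)

/-- `Γ_k` -/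
def Ga (k i : Fin 2) : OO W A := R 0 (d i (M.gam k))

/-- The curvature of `α`. -/
def RR (i c : Fin 2) : OO W ℂ := M.D 0 (M.al 1 i c) - M.D 1 (M.al 0 i c)
  - ((M.al 0 i 0 * M.al 1 0 c - M.al 1 i 0 * M.al 0 0 c)
    + (M.al 0 i 1 * M.al 1 1 c - M.al 1 i 1 * M.al 0 1 c))

/-- `κ` -/
def ka (i : Fin 2) : OO W ℂ := -R 1 (d 0 (M.RR i 1) - d 1 (M.RR i 0))

/-- `N_k x = D_k x + x η_k` -/
def N (k : Fin 2) (x : OO W A) : OO W A := M.D k x + x * M.eta k

/-- `ρ_0` -/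
def rho0 : OO W A := -(M.N 0 (M.Ga 1 1) - M.N 1 (M.Ga 0 1))
  + (M.al 0 0 0 • M.Ga 1 1 - M.al 0 0 1 • M.Ga 1 0)
  - (M.al 1 0 0 • M.Ga 0 1 - M.al 1 0 1 • M.Ga 0 0) - M.ka 0 • (1 : OO W A)

/-- `ρ_1` -/
def rho1 : OO W A := (M.N 0 (M.Ga 1 0) - M.N 1 (M.Ga 0 0))
  + (M.al 0 1 0 • M.Ga 1 1 - M.al 0 1 1 • M.Ga 1 0)
  - (M.al 1 1 0 • M.Ga 0 1 - M.al 1 1 1 • M.Ga 0 0) - M.ka 1 • (1 : OO W A)

/-- `Φ` -/
def Phi : OO W A := -R 1 (d 0 (-M.rho0) - d 1 M.rho1)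

variable (k i c : Fin 2)

lemma a_eq : M.a k i = M.al k i 0 * s W 0 + M.al k i 1 * s W 1 := by
  have h := OO.euler0 (M.a k i) (M.a0 k i)
  rw [smul_eq_mul', smul_eq_mul'] at h
  simp only [al]
  linear_combination -h

/-- (t1) -/
lemma Ds : M.D k (s W i) = M.al k i 0 * s W 0 + M.al k i 1 * s W 1 := by
  rw [VF.D_s, a_eq]

/-- `R s = 0` -/
lemma RR_s : s W 0 * M.RR i 0 + s W 1 * M.RR i 1 = 0 := by
  have h := M.flat_a i
  rw [M.a_eq 1 i, M.a_eq 0 i] at h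
  simp only [← smul_eq_mul'] at h
  simp only [VF.D_add, VF.D_smul, Ds] at h
  simp only [smul_eq_mul'] at h
  simp only [RR]
  linear_combination h

/-- (t3) -/
lemma RR_0 : M.RR i 0 = s W 1 * M.ka i := by
  have h := (koszul (M.RR i 0) (M.RR i 1) (by simpa only [smul_eq_mul'] using M.RR_s i)).2
  rw [smul_eq_mul'] at h
  rw [ka]
  linear_combination h

lemma RR_1 : M.RR i 1 = -(s W 0 * M.ka i) := by
  have h := (koszul (M.RR i 0) (M.RR i 1) (by simpa only [smul_eq_mul'] using M.RR_s i)).1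
  rw [smul_eq_mul'] at h
  rw [ka]
  linear_combination h

/-- `Σ s_i Γ_{k,i} = γ_k` -/
lemma Ga_s [CompleteSpace A] : s W 0 • M.Ga k 0 + s W 1 • M.Ga k 1 = M.gam k := by
  refine OO.euler0 (M.gam k) fun z hz => ?_
  have hR : ∀ i, (R 0 (d i (M.a k i))).fn (z, 0) = 0 := fun i => by
    rw [fn_R _ _ hz, RI_zero, M.a1 k i i z hz, smul_zero]
  simp only [gam, eta, tr, al, dv', fn_sub, fn_add, fn_smul, M.e0 k z hz, M.a1 k _ _ z hz, hR]
  simp

lemma eta_eq : M.eta k = M.gam k + M.tr k • (1 : OO W A) := by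
  simp only [gam]
  module

lemma tr_RR : M.D 0 (M.tr 1) - M.D 1 (M.tr 0) = s W 1 * M.ka 0 - s W 0 * M.ka 1 := by
  have h0 := M.RR_0 0
  have h1 := M.RR_1 1
  simp only [RR] at h0 h1
  simp only [tr, VF.D_add]
  linear_combination h0 + h1

/-- the relation between `ρ_0` and `ρ_1` -/
lemma rho_rel [CompleteSpace A] : s W 0 • M.rho1 + s W 1 • (-M.rho0) = 0 := by
  have g0 := M.Ga_s 0
  have g1 := M.Ga_s 1
  have h1 := congrArg (M.D 0) g1
  have h0 := congrArg (M.D 1) g0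
  simp only [VF.D_add, VF.D_smul, Ds] at h0 h1
  have hD : M.D 0 (M.gam 1) - M.D 1 (M.gam 0) =
      M.gam 0 * M.eta 1 - M.gam 1 * M.eta 0 + (M.tr 0 • M.eta 1 - M.tr 1 • M.eta 0)
      - (s W 1 * M.ka 0 - s W 0 * M.ka 1) • (1 : OO W A) := by
    have h2 := M.flat_eta
    rw [← M.tr_RR]
    have h3 : M.eta 0 * M.eta 1 - M.eta 1 * M.eta 0 =
        M.gam 0 * M.eta 1 - M.gam 1 * M.eta 0 + (M.tr 0 • M.eta 1 - M.tr 1 • M.eta 0) := by
      have e0 : M.eta 0 * M.eta 1 = M.gam 0 * M.eta 1 + M.tr 0 • M.eta 1 := by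
        conv_lhs => rw [M.eta_eq 0]
        rw [add_mul, OO.smul_mul, one_mul]
      have e1 : M.eta 1 * M.eta 0 = M.gam 1 * M.eta 0 + M.tr 1 • M.eta 0 := by
        conv_lhs => rw [M.eta_eq 1]
        rw [add_mul, OO.smul_mul, one_mul]
      rw [e0, e1]
      abel
    rw [← h3, ← h2]
    simp only [gam, VF.D_sub, VF.D_smul, VF.D_one]
    module
  have k1 : s W 0 • (M.Ga 1 0 * M.eta 0) + s W 1 • (M.Ga 1 1 * M.eta 0) = M.gam 1 * M.eta 0 := by
    rw [← g1, add_mul, OO.smul_mul, OO.smul_mul]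
  have k0 : s W 0 • (M.Ga 0 0 * M.eta 1) + s W 1 • (M.Ga 0 1 * M.eta 1) = M.gam 0 * M.eta 1 := by
    rw [← g0, add_mul, OO.smul_mul, OO.smul_mul]
  have l0 : M.eta 0 = s W 0 • M.Ga 0 0 + s W 1 • M.Ga 0 1 + M.tr 0 • (1 : OO W A) := by
    rw [g0, eta_eq]
  have l1 : M.eta 1 = s W 0 • M.Ga 1 0 + s W 1 • M.Ga 1 1 + M.tr 1 • (1 : OO W A) := by
    rw [g1, eta_eq]
  rw [← h1, ← h0] at hD
  simp only [rho0, rho1, N]
  linear_combination (norm := skip) hD + k1 - k0 + M.tr 0 • l1 - M.tr 1 • l0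
  simp only [tr]
  module

/-- (t4) -/
lemma rho0_eq [CompleteSpace A] : M.rho0 = s W 0 • M.Phi := by
  have h := (koszul M.rho1 (-M.rho0) M.rho_rel).1
  rw [Phi, smul_neg, ← h, neg_neg]

lemma rho1_eq [CompleteSpace A] : M.rho1 = s W 1 • M.Phi := by
  have h := (koszul M.rho1 (-M.rho0) M.rho_rel).2
  rw [Phi, smul_neg, ← h]

end Model

end Vale.Agent.P267.H993
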