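import Vale.Agent.P267.H993.Ring
import Mathlib.Tactic.Module
import Mathlib.Tactic.LinearCombination

/-!
# P267, package RR-ALG, part 5: radial primitives, Koszul division, evaluation at `s = 0`
-/

open scoped ContDiff Topology
open Set MeasureTheory

noncomputable section

namespace Vale.Agent.P267.H993

open Vale.Agent.P267.H315 (V VV dbv)

universe u

namespace OO

variable {W : Dom} {A : Type u} [NormedRing A] [NormedAlgebra ℂ A]

lemma d_zero (j : Fin 2) : d j (0 : OO W A) = 0 := by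
  have := d_add j (0 : OO W A) 0
  simpa using this

lemma dz_zero (j : Fin 2) : dz j (0 : OO W A) = 0 := by
  have := dz_add j (0 : OO W A) 0
  simpa using this

lemma d_one (j : Fin 2) : d j (1 : OO W A) = 0 := by
  have := d_mul j (1 : OO W A) 1
  simpa using this

lemma dz_one (j : Fin 2) : dz j (1 : OO W A) = 0 := by
  have := dz_mul j (1 : OO W A) 1
  simpa using this

lemma d_neg (j : Fin 2) (f : OO W A) : d j (-f) = -d j f := by
  have := d_add j f (-f)
  rw [add_neg_cancel, d_zero] at this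
  exact eq_neg_of_add_eq_zero_right this.symm

lemma dz_neg (j : Fin 2) (f : OO W A) : dz j (-f) = -dz j f := by
  have := dz_add j f (-f)
  rw [add_neg_cancel, dz_zero] at this
  exact eq_neg_of_add_eq_zero_right this.symm

lemma d_sub (j : Fin 2) (f g : OO W A) : d j (f - g) = d j f - d j g := by
  rw [sub_eq_add_neg, d_add, d_neg, ← sub_eq_add_neg]

lemma dz_sub (j : Fin 2) (f g : OO W A) : dz j (f - g) = dz j f - dz j g := by
  rw [sub_eq_add_neg, dz_add, dz_neg, ← sub_eq_add_neg]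

lemma smul_eq_mul' (f g : OO W ℂ) :
    @HSMul.hSMul (OO W ℂ) (OO W ℂ) _ (@instHSMul _ _ OO.instSMulComplex) f g = f * g := by
  refine ext_fn fun x _ => ?_
  rw [fn_smul, fn_mul, smul_eq_mul]

variable (W) in
/-- The coordinate `s_j`. -/
def s (j : Fin 2) : OO W ℂ := OO.of (fun x => x.2 j) (by
  have hL : (fun x : VV => x.2 j) = fun x => ((ContinuousLinearMap.proj (R := ℝ) j).comp
    (ContinuousLinearMap.snd ℝ V V)) x := rfl
  refine ⟨?_, fun x _ i => ?_⟩
  · rw [hL]
    exact (ContinuousLinearMap.contDiff _).contDiffOn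
  · rw [hL]
    unfold dv
    rw [ContinuousLinearMap.fderiv]
    simp only [ContinuousLinearMap.comp_apply, ContinuousLinearMap.coe_snd',
      ContinuousLinearMap.proj_apply, es, ies, smul_eq_mul]
    by_cases h : j = i
    · subst h
      simp
    · simp [Pi.single_eq_of_ne h])

lemma fn_s (j : Fin 2) {x : VV} (hx : x ∈ W.W) : (s W j).fn x = x.2 j := of_fn _ _ hx

lemma dv_s (j : Fin 2) {x : VV} (hx : x ∈ W.W) (v : VV) : dv v (s W j).fn x = v.2 j := by
  unfold s
  rw [dv_of _ _ hx]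
  have hL : (fun x : VV => x.2 j) = fun x => ((ContinuousLinearMap.proj (R := ℝ) j).comp
    (ContinuousLinearMap.snd ℝ V V)) x := rfl
  rw [hL]
  unfold dv
  rw [ContinuousLinearMap.fderiv]
  rfl

lemma d_s_same (j : Fin 2) : d j (s W j) = 1 :=
  ext_fn fun x hx => by
    rw [fn_d _ _ hx, fn_one hx]
    unfold ds
    rw [dv_s _ hx]
    simp [es]

lemma d_s_ne {i j : Fin 2} (h : j ≠ i) : d i (s W j) = 0 :=
  ext_fn fun x hx => by
    rw [fn_d _ _ hx, fn_zero]
    unfold ds
    rw [dv_s _ hx]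
    simp [es, Pi.single_eq_of_ne h]

lemma dz_s (i j : Fin 2) : dz i (s W j) = 0 :=
  ext_fn fun x hx => by
    rw [fn_dz _ _ hx, fn_zero]
    unfold dzb
    rw [dv_s _ hx, dv_s _ hx]
    simp [ez, iez]

@[simp] lemma d00 : d 0 (s W 0) = 1 := d_s_same 0
@[simp] lemma d11 : d 1 (s W 1) = 1 := d_s_same 1
@[simp] lemma d01 : d 0 (s W 1) = 0 := d_s_ne (by decide)
@[simp] lemma d10 : d 1 (s W 0) = 0 := d_s_ne (by decide)

/-- `∫₀¹ t^k F(z,ts) dt` -/
def R (k : ℕ) (f : OO W A) : OO W A := OO.of (RI k f.fn) (RI_hol W.st k f.fn_hol)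

lemma fn_R (k : ℕ) (f : OO W A) {x : VV} (hx : x ∈ W.W) : (R k f).fn x = RI k f.fn x :=
  of_fn _ _ hx

lemma d_R (j : Fin 2) (k : ℕ) (f : OO W A) : d j (R k f) = R (k + 1) (d j f) :=
  ext_fn fun x hx => by
    rw [fn_d _ _ hx, fn_R _ _ hx]
    unfold ds R
    rw [dv_of _ _ hx]
    unfold es
    rw [RI_dvs W.st k f.fn_hol.sm hx]
    exact RI_congr W.st (k + 1) (fun y hy => (fn_d j f hy).symm) hx

lemma dz_R (j : Fin 2) (k : ℕ) (f : OO W A) : dz j (R k f) = R k (dz j f) :=
  ext_fn fun x hx => by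
    rw [fn_dz _ _ hx, fn_R _ _ hx]
    unfold dzb R
    rw [dv_of _ _ hx, dv_of _ _ hx]
    unfold ez iez
    rw [RI_dvz W.st k f.fn_hol.sm hx, RI_dvz W.st k f.fn_hol.sm hx]
    rw [RI_congr W.st k (G := fun y => (1 / 2 : ℂ) • (dv (ez j) f.fn y
      + Complex.I • dv (iez j) f.fn y)) (fun y hy => fn_dz j f hy) hx]
    have h1 := (f.fn_hol.dv W.st.op (ez j)).sm
    have h2 := (f.fn_hol.dv W.st.op (iez j)).sm
    have h3 : ContDiffOn ℝ ∞ (fun y => Complex.I • dv (iez j) f.fn y) W.W := by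
      have := (HolOn.const (W := W.W) Complex.I).smul W.st.op (f.fn_hol.dv W.st.op (iez j))
      exact this.sm
    rw [RI_const_smul k (1 / 2) (F := fun y => dv (ez j) f.fn y + Complex.I • dv (iez j) f.fn y),
      RI_add W.st k h1 h3 hx, RI_const_smul]
    rfl

variable [CompleteSpace A]

lemma euler (k : ℕ) (f : OO W A) :
    f = (k + 1 : ℂ) • R k f + (s W 0 • R (k + 1) (d 0 f) + s W 1 • R (k + 1) (d 1 f)) :=
  ext_fn fun x hx => by
    rw [fn_add, fn_add, fn_csmul, fn_smul, fn_smul, fn_R _ _ hx, fn_R _ _ hx, fn_R _ _ hx,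
      fn_s _ hx, fn_s _ hx, RI_congr W.st (k + 1) (fun y hy => fn_d 0 f hy) hx,
      RI_congr W.st (k + 1) (fun y hy => fn_d 1 f hy) hx]
    exact H993.euler W.st k f.fn_hol hx

/-- T1: radial primitive. -/
lemma euler0 (f : OO W A) (h0 : ∀ z, (z, 0) ∈ W.W → f.fn (z, 0) = 0) :
    s W 0 • R 0 (d 0 f) + s W 1 • R 0 (d 1 f) = f :=
  ext_fn fun x hx => by
    rw [fn_add, fn_smul, fn_smul, fn_R _ _ hx, fn_R _ _ hx,
      fn_s _ hx, fn_s _ hx, RI_congr W.st 0 (fun y hy => fn_d 0 f hy) hx,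
      RI_congr W.st 0 (fun y hy => fn_d 1 f hy) hx]
    have hx0 : (x.1, 0) ∈ W.W := by
      have := W.st.star x hx 0 (by simp)
      rwa [zero_smul] at this
    rw [H993.euler0 W.st f.fn_hol hx, h0 _ hx0, zero_add]

/-- T2: Koszul division. -/
theorem koszul (F0 F1 : OO W A) (h : s W 0 • F0 + s W 1 • F1 = 0) :
    F1 = s W 0 • R 1 (d 0 F1 - d 1 F0) ∧ F0 = -(s W 1 • R 1 (d 0 F1 - d 1 F0)) := by
  have hRs : ∀ (i : Fin 2) (k : ℕ) (X : OO W A), s W i • R (k + 1) X = R k (s W i • X) := by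
    intro i k X
    refine ext_fn fun x hx => ?_
    rw [fn_smul, fn_R _ _ hx, fn_R _ _ hx, fn_s _ hx]
    unfold RI
    rw [← intervalIntegral.integral_smul]
    refine intervalIntegral.integral_congr fun t ht => ?_
    rw [uIcc_of_le zero_le_one] at ht
    have hy := W.st.star x hx t ht
    simp only [fn_smul, fn_s _ hy]
    rw [Pi.smul_apply, smul_assoc, smul_smul, pow_succ, smul_comm]
  have hadd : ∀ (k : ℕ) (X Y : OO W A), R k (X + Y) = R k X + R k Y := by
    intro k X Y
    refine ext_fn fun x hx => ?_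
    rw [fn_add, fn_R _ _ hx, fn_R _ _ hx, fn_R _ _ hx, ← RI_add W.st k X.fn_hol.sm Y.fn_hol.sm hx]
    exact RI_congr W.st k (fun y _ => fn_add X Y y) hx
  have hneg : ∀ (k : ℕ) (X : OO W A), R k (-X) = -R k X := by
    intro k X
    have h0 : R k (0 : OO W A) = 0 := by
      have := hadd k 0 0
      simpa using this
    have := hadd k X (-X)
    rw [add_neg_cancel, h0] at this
    exact eq_neg_of_add_eq_zero_right this.symm
  have e0 := congrArg (d 0) h
  have e1 := congrArg (d 1) h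
  simp only [d_add, d_smul, d_zero, d00, d01, d10, d11, one_smul, zero_smul, zero_add] at e0 e1
  constructor
  · have h1 : s W 0 • (d 0 F1 - d 1 F0) = F1 + (s W 0 • d 0 F1 + s W 1 • d 1 F1) := by
      linear_combination (norm := module) - e1
    rw [hRs, h1, hadd, hadd, ← hRs, ← hRs]
    have := euler 0 F1
    simp only [Nat.cast_zero, zero_add, one_smul] at this
    exact this
  · have h1 : s W 1 • (d 0 F1 - d 1 F0) = -(F0 + (s W 0 • d 0 F0 + s W 1 • d 1 F0)) := by
      linear_combination (norm := module) e0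
    rw [hRs, h1, hneg, hadd, hadd, ← hRs, ← hRs, neg_neg]
    have := euler 0 F0
    simp only [Nat.cast_zero, zero_add, one_smul] at this
    exact this

end OO

end Vale.Agent.P267.H993
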