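import Mathlib.Analysis.Calculus.ParametricIntervalIntegral
import Mathlib.Analysis.Calculus.ContDiff.Operations
import Mathlib.Analysis.Calculus.ContDiff.Basic
import Mathlib.MeasureTheory.Integral.IntervalIntegral.FundThmCalculus
import Mathlib.Analysis.Calculus.FDeriv.Prod
import Mathlib.Analysis.Normed.Module.FiniteDimension
import Mathlib.MeasureTheory.Integral.IntervalIntegral.IntegrationByParts

/-!
# P267, package RR-ALG: smoothness of parameter integrals over `[0, 1]`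
-/

open scoped ContDiff Topology
open Set MeasureTheory

noncomputable section

namespace Vale.Agent.P267.H993

universe u

section

variable {E : Type} [NormedAddCommGroup E] [NormedSpace ℝ E] [FiniteDimensional ℝ E]

lemma hasFDerivAt_param {B : Type u} [NormedAddCommGroup B] [NormedSpace ℝ B]
    {Ω : Set (ℝ × E)} (hΩ : IsOpen Ω) {O : Set E} (hO : IsOpen O)
    (hsub : ∀ t ∈ Icc (0 : ℝ) 1, ∀ x ∈ O, (t, x) ∈ Ω) {f : ℝ × E → B} (hf : ContDiffOn ℝ 1 f Ω)
    {x : E} (hx : x ∈ O) :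
    HasFDerivAt (fun x => ∫ t in (0 : ℝ)..1, f (t, x))
      (∫ t in (0 : ℝ)..1, (fderiv ℝ f (t, x)).comp (ContinuousLinearMap.inr ℝ ℝ E)) x := by
  obtain ⟨r, hr, hrO⟩ := Metric.nhds_basis_closedBall.mem_iff.1 (hO.mem_nhds hx)
  have huI : uIcc (0 : ℝ) 1 = Icc 0 1 := uIcc_of_le zero_le_one
  have hcont : ContinuousOn f Ω := hf.continuousOn
  have hdc : ContinuousOn (fderiv ℝ f) Ω := hf.continuousOn_fderiv_of_isOpen hΩ le_rfl
  have hK : IsCompact (Icc (0 : ℝ) 1 ×ˢ Metric.closedBall x r) :=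
    isCompact_Icc.prod (isCompact_closedBall x r)
  have hKΩ : Icc (0 : ℝ) 1 ×ˢ Metric.closedBall x r ⊆ Ω := fun p hp =>
    hsub p.1 hp.1 p.2 (hrO hp.2)
  obtain ⟨C, hC⟩ := hK.exists_bound_of_continuousOn
    (f := fun p => (fderiv ℝ f p).comp (ContinuousLinearMap.inr ℝ ℝ E))
    ((hdc.mono hKΩ).clm_comp continuousOn_const)
  have hsec : ∀ y ∈ O, ContinuousOn (fun t : ℝ => f (t, y)) (uIcc 0 1) := by
    intro y hy
    refine hcont.comp (by fun_prop) ?_
    intro t ht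
    rw [huI] at ht
    exact hsub t ht y hy
  have hsec' : ContinuousOn
      (fun t : ℝ => (fderiv ℝ f (t, x)).comp (ContinuousLinearMap.inr ℝ ℝ E)) (uIcc 0 1) := by
    refine ContinuousOn.clm_comp (hdc.comp (by fun_prop) ?_) continuousOn_const
    intro t ht
    rw [huI] at ht
    exact hsub t ht x hx
  refine intervalIntegral.hasFDerivAt_integral_of_dominated_of_fderiv_le
    (F := fun x t => f (t, x))
    (F' := fun x t => (fderiv ℝ f (t, x)).comp (ContinuousLinearMap.inr ℝ ℝ E))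
    (s := Metric.closedBall x r) (bound := fun _ => C) (Metric.closedBall_mem_nhds x hr)
    ?_ ?_ ?_ ?_ ?_ ?_
  · filter_upwards [hO.mem_nhds hx] with y hy
    have := (hsec y hy).intervalIntegrable (μ := volume)
    exact this.def'.aestronglyMeasurable
  · exact (hsec x hx).intervalIntegrable
  · exact hsec'.intervalIntegrable.def'.aestronglyMeasurable
  · refine Filter.Eventually.of_forall fun t ht y hy => ?_
    rw [uIoc_of_le zero_le_one] at ht
    exact hC (t, y) ⟨⟨ht.1.le, ht.2⟩, hy⟩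
  · exact intervalIntegrable_const
  · refine Filter.Eventually.of_forall fun t ht y hy => ?_
    rw [uIoc_of_le zero_le_one] at ht
    have hty : (t, y) ∈ Ω := hKΩ ⟨⟨ht.1.le, ht.2⟩, hy⟩
    have h1 : HasFDerivAt f (fderiv ℝ f (t, y)) (t, y) :=
      ((hf.contDiffAt (hΩ.mem_nhds hty)).differentiableAt one_ne_zero).hasFDerivAt
    exact h1.comp y (hasFDerivAt_prodMk_right t y)

lemma contDiffOn_param_nat (n : ℕ) : ∀ {B : Type u} [NormedAddCommGroup B] [NormedSpace ℝ B]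
    {Ω : Set (ℝ × E)} (_ : IsOpen Ω) {O : Set E} (_ : IsOpen O)
    (_ : ∀ t ∈ Icc (0 : ℝ) 1, ∀ x ∈ O, (t, x) ∈ Ω) {f : ℝ × E → B} (_ : ContDiffOn ℝ ∞ f Ω),
    ContDiffOn ℝ n (fun x => ∫ t in (0 : ℝ)..1, f (t, x)) O := by
  induction n with
  | zero =>
    intro B _ _ Ω hΩ O hO hsub f hf
    rw [Nat.cast_zero, contDiffOn_zero]
    intro x hx
    exact (hasFDerivAt_param hΩ hO hsub (hf.of_le (by norm_cast)) hx).continuousAt.continuousWithinAt
  | succ n ih =>
    intro B _ _ Ω hΩ O hO hsub f hf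
    have hd : ∀ x ∈ O, HasFDerivAt (fun x => ∫ t in (0 : ℝ)..1, f (t, x))
      (∫ t in (0 : ℝ)..1, (fderiv ℝ f (t, x)).comp (ContinuousLinearMap.inr ℝ ℝ E)) x :=
      fun x hx => hasFDerivAt_param hΩ hO hsub (hf.of_le (by norm_cast)) hx
    rw [Nat.cast_add, Nat.cast_one, contDiffOn_succ_iff_fderiv_of_isOpen hO]
    refine ⟨fun x hx => (hd x hx).differentiableAt.differentiableWithinAt, by simp, ?_⟩
    have h1 : ContDiffOn ℝ ∞
        (fun p => (fderiv ℝ f p).comp (ContinuousLinearMap.inr ℝ ℝ E)) Ω :=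
      (hf.fderiv_of_isOpen hΩ (by simp)).clm_comp contDiffOn_const
    have h2 := ih hΩ hO hsub h1
    exact h2.congr fun x hx => (hd x hx).fderiv

lemma contDiffOn_param {B : Type u} [NormedAddCommGroup B] [NormedSpace ℝ B]
    {Ω : Set (ℝ × E)} (hΩ : IsOpen Ω) {O : Set E} (hO : IsOpen O)
    (hsub : ∀ t ∈ Icc (0 : ℝ) 1, ∀ x ∈ O, (t, x) ∈ Ω) {f : ℝ × E → B} (hf : ContDiffOn ℝ ∞ f Ω) :
    ContDiffOn ℝ ∞ (fun x => ∫ t in (0 : ℝ)..1, f (t, x)) O :=
  contDiffOn_infty.2 fun n => contDiffOn_param_nat n hΩ hO hsub hf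

end

end Vale.Agent.P267.H993
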