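import Vale.Agent.P267.H993.Par
import Vale.Agent.P267.H993.Hol
import Mathlib.Analysis.SpecialFunctions.Integrals.Basic

/-!
# P267, package RR-ALG, part 3: radial integrals in the fibre variable `s`
-/

open scoped ContDiff Topology
open Set MeasureTheory

noncomputable section

namespace Vale.Agent.P267.H993

open Vale.Agent.P267.H315 (V VV dbv)

universe u

/-- Open and star shaped in the fibre direction. -/
structure Star (W : Set VV) : Prop where
  op : IsOpen W
  star : ∀ x ∈ W, ∀ t ∈ Icc (0 : ℝ) 1, (x.1, t • x.2) ∈ W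

variable {B : Type u} [NormedAddCommGroup B] [NormedSpace ℂ B]
  {W : Set VV} {F G : VV → B}

/-- `∫₀¹ t^k F(z, t s) dt` -/
def RI (k : ℕ) (F : VV → B) (x : VV) : B := ∫ t in (0 : ℝ)..1, (t ^ k : ℝ) • F (x.1, t • x.2)

/-- the scaling map -/
def scl (t : ℝ) : VV →L[ℝ] VV :=
  (ContinuousLinearMap.fst ℝ V V).prod (t • ContinuousLinearMap.snd ℝ V V)

@[simp] lemma scl_apply (t : ℝ) (x : VV) : scl t x = (x.1, t • x.2) := rfl

lemma isOpen_scl (hW : Star W) : IsOpen {p : ℝ × VV | (p.2.1, p.1 • p.2.2) ∈ W} :=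
  hW.op.preimage (by fun_prop)

lemma integrand_contDiffOn (_ : Star W) (k : ℕ) (hF : ContDiffOn ℝ ∞ F W) :
    ContDiffOn ℝ ∞ (fun p : ℝ × VV => (p.1 ^ k : ℝ) • F (p.2.1, p.1 • p.2.2))
      {p : ℝ × VV | (p.2.1, p.1 • p.2.2) ∈ W} := by
  have h1 : ContDiffOn ℝ ∞ (fun p : ℝ × VV => (p.1 ^ k : ℝ))
      {p : ℝ × VV | (p.2.1, p.1 • p.2.2) ∈ W} := (contDiff_fst.pow k).contDiffOn
  have h2 : ContDiffOn ℝ ∞ (fun p : ℝ × VV => F (p.2.1, p.1 • p.2.2))
      {p : ℝ × VV | (p.2.1, p.1 • p.2.2) ∈ W} := by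
    refine hF.comp (t := W) ?_ fun p hp => hp
    refine ContDiff.contDiffOn ?_
    exact (contDiff_fst.comp contDiff_snd).prodMk
      (contDiff_fst.smul (contDiff_snd.comp contDiff_snd))
  exact h1.smul h2

lemma RI_contDiffOn (hW : Star W) (k : ℕ) (hF : ContDiffOn ℝ ∞ F W) :
    ContDiffOn ℝ ∞ (RI k F) W :=
  contDiffOn_param (isOpen_scl hW) hW.op (fun t ht x hx => hW.star x hx t ht)
    (integrand_contDiffOn hW k hF)

lemma RI_cont (hW : Star W) (k : ℕ) (hF : ContDiffOn ℝ ∞ F W) {x : VV} (hx : x ∈ W) :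
    ContinuousOn (fun t : ℝ => (t ^ k : ℝ) • F (x.1, t • x.2)) (uIcc 0 1) := by
  rw [uIcc_of_le zero_le_one]
  exact (integrand_contDiffOn hW k hF).continuousOn.comp (f := fun t : ℝ => (t, x))
    (by fun_prop) fun t ht => hW.star x hx t ht

lemma RI_int (hW : Star W) (k : ℕ) (hF : ContDiffOn ℝ ∞ F W) {x : VV} (hx : x ∈ W) :
    IntervalIntegrable (fun t : ℝ => (t ^ k : ℝ) • F (x.1, t • x.2)) volume 0 1 :=
  (RI_cont hW k hF hx).intervalIntegrable

/-- Derivative of the integrand. -/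
lemma integrand_hasFDerivAt (hW : Star W) (k : ℕ) (hF : ContDiffOn ℝ ∞ F W) {x : VV}
    {t : ℝ} (ht : (x.1, t • x.2) ∈ W) :
    HasFDerivAt (fun y : VV => (t ^ k : ℝ) • F (y.1, t • y.2))
      ((t ^ k : ℝ) • (fderiv ℝ F (x.1, t • x.2)).comp (scl t)) x := by
  have h1 : HasFDerivAt F (fderiv ℝ F (scl t x)) (scl t x) :=
    ((hF.contDiffAt (hW.op.mem_nhds ht)).differentiableAt (by simp)).hasFDerivAt
  exact (h1.comp x (scl t).hasFDerivAt).const_smul (t ^ k)

lemma RI_dv (hW : Star W) (k : ℕ) (hF : ContDiffOn ℝ ∞ F W) {x : VV} (hx : x ∈ W) (v : VV) :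
    dv v (RI k F) x = ∫ t in (0 : ℝ)..1, (t ^ k : ℝ) • fderiv ℝ F (x.1, t • x.2) (scl t v) := by
  have h1 := hasFDerivAt_param (isOpen_scl hW) hW.op (fun t ht x hx => hW.star x hx t ht)
    ((integrand_contDiffOn hW k hF).of_le (by norm_cast)) hx
  unfold dv
  rw [show RI k F = fun x => ∫ t in (0 : ℝ)..1, (t ^ k : ℝ) • F (x.1, t • x.2) from rfl,
    h1.fderiv]
  rw [ContinuousLinearMap.intervalIntegral_apply]
  · refine intervalIntegral.integral_congr fun t ht => ?_
    rw [uIcc_of_le zero_le_one] at ht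
    have htx := hW.star x hx t ht
    have h2 : HasFDerivAt (fun p : ℝ × VV => (p.1 ^ k : ℝ) • F (p.2.1, p.1 • p.2.2))
        (fderiv ℝ (fun p : ℝ × VV => (p.1 ^ k : ℝ) • F (p.2.1, p.1 • p.2.2)) (t, x)) (t, x) :=
      (((integrand_contDiffOn hW k hF).contDiffAt ((isOpen_scl hW).mem_nhds htx)).differentiableAt
        (by simp)).hasFDerivAt
    have h3 := h2.comp x (hasFDerivAt_prodMk_right t x)
    have h4 := h3.unique (integrand_hasFDerivAt hW k hF htx)
    simp only [h4]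
    rfl
  · have hc : ContinuousOn (fderiv ℝ (fun p : ℝ × VV => (p.1 ^ k : ℝ) • F (p.2.1, p.1 • p.2.2)))
        {p : ℝ × VV | (p.2.1, p.1 • p.2.2) ∈ W} :=
      (integrand_contDiffOn hW k hF).continuousOn_fderiv_of_isOpen (isOpen_scl hW) (by simp)
    refine ContinuousOn.intervalIntegrable ?_
    rw [uIcc_of_le zero_le_one]
    refine ContinuousOn.clm_comp (hc.comp (f := fun t : ℝ => (t, x)) (by fun_prop) ?_)
      continuousOn_const
    exact fun t ht => hW.star x hx t ht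

/-- Derivatives in the base directions. -/
lemma RI_dvz (hW : Star W) (k : ℕ) (hF : ContDiffOn ℝ ∞ F W) {x : VV} (hx : x ∈ W) (v : V) :
    dv (v, 0) (RI k F) x = RI k (dv (v, 0) F) x := by
  rw [RI_dv hW k hF hx]
  unfold RI dv
  simp

/-- Derivatives in the fibre directions. -/
lemma RI_dvs (hW : Star W) (k : ℕ) (hF : ContDiffOn ℝ ∞ F W) {x : VV} (hx : x ∈ W) (v : V) :
    dv (0, v) (RI k F) x = RI (k + 1) (dv (0, v) F) x := by
  rw [RI_dv hW k hF hx]
  unfold RI dv
  refine intervalIntegral.integral_congr fun t _ => ?_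
  have : scl t (0, v) = t • ((0, v) : VV) := by simp [scl]
  simp only [this, map_smul, smul_smul, pow_succ]

lemma RI_congr (hW : Star W) (k : ℕ) (h : ∀ x ∈ W, F x = G x) {x : VV} (hx : x ∈ W) :
    RI k F x = RI k G x := by
  unfold RI
  refine intervalIntegral.integral_congr fun t ht => ?_
  rw [uIcc_of_le zero_le_one] at ht
  simp only [h _ (hW.star x hx t ht)]

lemma RI_add (hW : Star W) (k : ℕ) (hF : ContDiffOn ℝ ∞ F W) (hG : ContDiffOn ℝ ∞ G W) {x : VV}
    (hx : x ∈ W) : RI k (fun x => F x + G x) x = RI k F x + RI k G x := by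
  unfold RI
  rw [← intervalIntegral.integral_add (RI_int hW k hF hx) (RI_int hW k hG hx)]
  simp only [smul_add]

lemma RI_const_smul (k : ℕ) (c : ℂ) (x : VV) : RI k (fun x => c • F x) x = c • RI k F x := by
  unfold RI
  rw [← intervalIntegral.integral_smul]
  refine intervalIntegral.integral_congr fun t _ => ?_
  simp only
  rw [smul_comm]

/-- A fibre derivative of a function holomorphic in the fibre. -/
lemma fderiv_snd (hF : HolOn W F) {x : VV} (hx : x ∈ W) (v : V) :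
    fderiv ℝ F x (0, v) = v 0 • ds 0 F x + v 1 • ds 1 F x := by
  have hv : ((0, v) : VV) = ∑ j : Fin 2, ((v j).re • es j + (v j).im • ies j) := by
    ext i
    · simp [es, ies, Fin.sum_univ_two]
    · fin_cases i <;> simp [es, ies, Fin.sum_univ_two]
  rw [hv, map_sum, ← Fin.sum_univ_two (fun j => v j • ds j F x)]
  refine Finset.sum_congr rfl fun j _ => ?_
  rw [map_add, map_smul, map_smul]
  have h1 := hF.hol x hx j
  unfold dv at h1
  rw [h1]
  unfold ds dv
  conv_rhs => rw [← Complex.re_add_im (v j)]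
  rw [add_smul, mul_smul, Complex.coe_smul, Complex.coe_smul]

lemma RI_hol (hW : Star W) (k : ℕ) (hF : HolOn W F) : HolOn W (RI k F) := by
  refine ⟨RI_contDiffOn hW k hF.sm, fun x hx j => ?_⟩
  unfold es ies
  rw [RI_dvs hW k hF.sm hx, RI_dvs hW k hF.sm hx, ← RI_const_smul]
  exact RI_congr hW (k + 1) (fun y hy => hF.hol y hy j) hx

lemma line_hasDerivAt (x : VV) (t : ℝ) :
    HasDerivAt (fun t : ℝ => ((x.1, t • x.2) : VV)) (0, x.2) t := by
  have := (hasDerivAt_const t x.1).prodMk ((hasDerivAt_id t).smul_const x.2)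
  rw [one_smul] at this
  exact this

lemma comp_line_hasDerivAt (hW : Star W) (hF : HolOn W F) {x : VV} {t : ℝ}
    (htx : (x.1, t • x.2) ∈ W) :
    HasDerivAt (fun t : ℝ => F (x.1, t • x.2))
      (x.2 0 • ds 0 F (x.1, t • x.2) + x.2 1 • ds 1 F (x.1, t • x.2)) t := by
  have h1 : HasFDerivAt F (fderiv ℝ F (x.1, t • x.2)) (x.1, t • x.2) :=
    ((hF.sm.contDiffAt (hW.op.mem_nhds htx)).differentiableAt (by simp)).hasFDerivAt
  have h3 := h1.comp_hasDerivAt t (line_hasDerivAt x t)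
  rwa [fderiv_snd hF htx] at h3

section complete

variable [CompleteSpace B]

lemma RI_zero (k : ℕ) (F : VV → B) (z : V) :
    RI k F (z, 0) = (1 / (k + 1) : ℂ) • F (z, 0) := by
  unfold RI
  simp only [smul_zero]
  rw [intervalIntegral.integral_smul_const, integral_pow]
  simp only [one_pow, ne_eq, Nat.add_eq_zero_iff, one_ne_zero, and_false, not_false_eq_true,
    zero_pow, sub_zero, ← Complex.coe_smul]
  congr 1
  push_cast
  rfl

/-- `F(z,s) = F(z,0) + Σ s_j ∫₀¹ ∂_jF(z,ts) dt`. -/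
lemma euler0 (hW : Star W) (hF : HolOn W F) {x : VV} (hx : x ∈ W) :
    F x = F (x.1, 0) + (x.2 0 • RI 0 (ds 0 F) x + x.2 1 • RI 0 (ds 1 F) x) := by
  have hd : ∀ t ∈ uIcc (0 : ℝ) 1, HasDerivAt (fun t : ℝ => F (x.1, t • x.2))
      (x.2 0 • ds 0 F (x.1, t • x.2) + x.2 1 • ds 1 F (x.1, t • x.2)) t := by
    intro t ht
    rw [uIcc_of_le zero_le_one] at ht
    exact comp_line_hasDerivAt hW hF (hW.star x hx t ht)
  have hi : ∀ j, IntervalIntegrable (fun t : ℝ => x.2 j • ds j F (x.1, t • x.2)) volume 0 1 := by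
    intro j
    have := (RI_int hW 0 (hF.ds hW.op j).sm hx).smul (x.2 j)
    simp only [pow_zero, one_smul] at this
    exact this
  have h := intervalIntegral.integral_eq_sub_of_hasDerivAt hd ((hi 0).add (hi 1))
  rw [one_smul, zero_smul, intervalIntegral.integral_add (hi 0) (hi 1),
    intervalIntegral.integral_smul, intervalIntegral.integral_smul] at h
  rw [sub_eq_iff_eq_add'.1 h.symm]
  unfold RI
  simp

/-- `F = (k+1) RI_k F + Σ s_j RI_{k+1} ∂_jF`. -/
lemma euler (hW : Star W) (k : ℕ) (hF : HolOn W F) {x : VV} (hx : x ∈ W) :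
    F x = (k + 1 : ℂ) • RI k F x
      + (x.2 0 • RI (k + 1) (ds 0 F) x + x.2 1 • RI (k + 1) (ds 1 F) x) := by
  have hd : ∀ t ∈ uIcc (0 : ℝ) 1, HasDerivAt (fun t : ℝ => (t ^ (k + 1) : ℝ) • F (x.1, t • x.2))
      ((k + 1 : ℂ) • ((t ^ k : ℝ) • F (x.1, t • x.2))
        + (x.2 0 • ((t ^ (k + 1) : ℝ) • ds 0 F (x.1, t • x.2))
          + x.2 1 • ((t ^ (k + 1) : ℝ) • ds 1 F (x.1, t • x.2)))) t := by
    intro t ht
    rw [uIcc_of_le zero_le_one] at ht
    have h3 := comp_line_hasDerivAt hW hF (hW.star x hx t ht)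
    have h4 := (hasDerivAt_pow (k + 1) t).smul h3
    refine h4.congr_deriv ?_
    rw [add_comm]
    congr 1
    · rw [Nat.add_sub_cancel, mul_smul, ← Complex.coe_smul ((k + 1 : ℕ) : ℝ)]
      push_cast
      rfl
    · rw [smul_add, smul_comm, smul_comm (t ^ (k + 1)) (x.2 1)]
  have hi : ∀ j, IntervalIntegrable
      (fun t : ℝ => x.2 j • ((t ^ (k + 1) : ℝ) • ds j F (x.1, t • x.2)))
      volume 0 1 := fun j => (RI_int hW (k + 1) (hF.ds hW.op j).sm hx).smul (x.2 j)
  have hi0 : IntervalIntegrable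
      (fun t : ℝ => (k + 1 : ℂ) • ((t ^ k : ℝ) • F (x.1, t • x.2))) volume 0 1 :=
    (RI_int hW k hF.sm hx).smul (k + 1 : ℂ)
  have h := intervalIntegral.integral_eq_sub_of_hasDerivAt hd (hi0.add ((hi 0).add (hi 1)))
  rw [one_smul, zero_smul, one_pow, one_smul, zero_pow (by omega), zero_smul, sub_zero,
    intervalIntegral.integral_add hi0 ((hi 0).add (hi 1)),
    intervalIntegral.integral_add (hi 0) (hi 1),
    intervalIntegral.integral_smul, intervalIntegral.integral_smul,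
    intervalIntegral.integral_smul] at h
  exact h.symm

end complete

end Vale.Agent.P267.H993
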