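import Vale.Agent.P267.H993.Rad
import Mathlib.Algebra.Algebra.Subalgebra.Basic
import Mathlib.Algebra.Algebra.Pi

/-!
# P267, package RR-ALG, part 4: the ring of smooth functions on `W`, holomorphic in `s`
-/

open scoped ContDiff Topology
open Set MeasureTheory

noncomputable section

namespace Vale.Agent.P267.H993

open Vale.Agent.P267.H315 (V VV dbv)

universe u

/-- A fibrewise star shaped open set. -/
structure Dom where
  W : Set VV
  st : Star W

variable (W : Dom)

section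

variable {B : Type u} [NormedAddCommGroup B]

/-- extension by zero -/
def ext0 (f : W.W → B) (x : VV) : B := by
  classical exact if h : x ∈ W.W then f ⟨x, h⟩ else 0

variable {W}

lemma ext0_of_mem (f : W.W → B) {x : VV} (h : x ∈ W.W) : ext0 W f x = f ⟨x, h⟩ := by
  simp [ext0, h]

lemma ext0_of_notMem (f : W.W → B) {x : VV} (h : x ∉ W.W) : ext0 W f x = 0 := by
  simp [ext0, h]

lemma ext0_add (f g : W.W → B) : ext0 W (f + g) = fun x => ext0 W f x + ext0 W g x := by
  funext x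
  by_cases h : x ∈ W.W
  · simp [ext0, h]
  · simp [ext0, h]

lemma ext0_neg (f : W.W → B) : ext0 W (-f) = fun x => -ext0 W f x := by
  funext x
  by_cases h : x ∈ W.W
  · simp [ext0, h]
  · simp [ext0, h]

end

variable {W}

variable {A : Type u} [NormedRing A]

lemma ext0_mul (f g : W.W → A) : ext0 W (f * g) = fun x => ext0 W f x * ext0 W g x := by
  funext x
  by_cases h : x ∈ W.W
  · simp [ext0, h]
  · simp [ext0, h]

/-- restriction of a function -/
def res (F : VV → A) : W.W → A := fun x => F x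

lemma ext0_res (F : VV → A) {x : VV} (hx : x ∈ W.W) : ext0 W (res F) x = F x :=
  ext0_of_mem _ hx

variable [NormedAlgebra ℂ A]

variable (W A) in
/-- The algebra of smooth functions on `W`, holomorphic in the fibre. -/
def OOalg : Subalgebra ℂ (W.W → A) where
  carrier := {f | HolOn W.W (ext0 W f)}
  mul_mem' {f g} hf hg := by
    simp only [mem_ofPred_eq] at *
    rw [ext0_mul]
    exact hf.mul W.st.op hg
  add_mem' {f g} hf hg := by
    simp only [mem_ofPred_eq] at *
    rw [ext0_add]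
    exact hf.add W.st.op hg
  algebraMap_mem' c := by
    refine (HolOn.const (W := W.W) (algebraMap ℂ A c)).congr W.st.op fun x hx => ?_
    rw [ext0_of_mem _ hx]
    rfl

variable (W A) in
/-- The algebra of smooth functions on `W`, holomorphic in the fibre. -/
abbrev OO : Type u := ↥(OOalg W A)

/-- constructor -/
def OO.of (F : VV → A) (h : HolOn W.W F) : OO W A :=
  ⟨res F, h.congr W.st.op fun _ hx => ext0_res F hx⟩

/-- the underlying function -/
def OO.fn (f : OO W A) : VV → A := ext0 W f.1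

namespace OO

lemma fn_hol (f : OO W A) : HolOn W.W f.fn := f.2

lemma of_fn (F : VV → A) (h : HolOn W.W F) {x : VV} (hx : x ∈ W.W) :
    (OO.of (W := W) F h).fn x = F x := ext0_res F hx

lemma ext_fn {f g : OO W A} (h : ∀ x ∈ W.W, f.fn x = g.fn x) : f = g := by
  refine Subtype.ext (funext fun x => ?_)
  have := h x.1 x.2
  unfold fn at this
  rwa [ext0_of_mem _ x.2, ext0_of_mem _ x.2] at this

lemma fn_add (f g : OO W A) (x : VV) : (f + g).fn x = f.fn x + g.fn x :=
  congrFun (ext0_add f.1 g.1) x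

lemma fn_neg (f : OO W A) (x : VV) : (-f).fn x = -f.fn x :=
  congrFun (ext0_neg f.1) x

lemma fn_mul (f g : OO W A) (x : VV) : (f * g).fn x = f.fn x * g.fn x :=
  congrFun (ext0_mul f.1 g.1) x

lemma fn_zero (x : VV) : (0 : OO W A).fn x = 0 := by
  by_cases h : x ∈ W.W
  · exact ext0_of_mem _ h
  · exact ext0_of_notMem _ h

lemma fn_one {x : VV} (h : x ∈ W.W) : (1 : OO W A).fn x = 1 := ext0_of_mem _ h

lemma fn_sub (f g : OO W A) (x : VV) : (f - g).fn x = f.fn x - g.fn x := by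
  rw [sub_eq_add_neg, fn_add, fn_neg, ← sub_eq_add_neg]

lemma fn_csmul (c : ℂ) (f : OO W A) (x : VV) : (c • f).fn x = c • f.fn x := by
  by_cases h : x ∈ W.W
  · exact (ext0_of_mem _ h).trans (congrArg (c • ·) (ext0_of_mem f.1 h).symm)
  · rw [fn, fn, ext0_of_notMem _ h, ext0_of_notMem _ h, smul_zero]

/-- The action of scalar functions. -/
instance : SMul (OO W ℂ) (OO W A) :=
  ⟨fun f g => OO.of (fun x => f.fn x • g.fn x) (f.fn_hol.smul W.st.op g.fn_hol)⟩

lemma fn_smul (f : OO W ℂ) (g : OO W A) (x : VV) : (f • g).fn x = f.fn x • g.fn x := by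
  by_cases h : x ∈ W.W
  · exact of_fn _ _ h
  · have : g.fn x = 0 := ext0_of_notMem _ h
    rw [this, smul_zero]
    exact ext0_of_notMem _ h

instance : Module (OO W ℂ) (OO W A) where
  one_smul f := ext_fn fun x hx => by rw [fn_smul, fn_one hx, one_smul]
  mul_smul f g h := ext_fn fun x _ => by rw [fn_smul, fn_smul, fn_smul, fn_mul, mul_smul]
  smul_zero f := ext_fn fun x _ => by rw [fn_smul, fn_zero, smul_zero]
  smul_add f g h := ext_fn fun x _ => by rw [fn_smul, fn_add, fn_add, fn_smul, fn_smul, smul_add]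
  add_smul f g h := ext_fn fun x _ => by rw [fn_smul, fn_add, fn_add, fn_smul, fn_smul, add_smul]
  zero_smul f := ext_fn fun x _ => by rw [fn_smul, fn_zero, fn_zero, zero_smul]

lemma smul_mul (f : OO W ℂ) (g h : OO W A) : (f • g) * h = f • (g * h) :=
  ext_fn fun x _ => by rw [fn_mul, fn_smul, fn_smul, fn_mul, smul_mul_assoc]

lemma mul_smul' (f : OO W ℂ) (g h : OO W A) : g * (f • h) = f • (g * h) :=
  ext_fn fun x _ => by rw [fn_mul, fn_smul, fn_smul, fn_mul, mul_smul_comm]

/-- `∂/∂s_j` -/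
def d (j : Fin 2) (f : OO W A) : OO W A := OO.of (ds j f.fn) (f.fn_hol.ds W.st.op j)

/-- `∂/∂z̄_k` at fixed `s` -/
def dz (k : Fin 2) (f : OO W A) : OO W A := OO.of (dzb k f.fn) (f.fn_hol.dzb W.st.op k)

lemma fn_d (j : Fin 2) (f : OO W A) {x : VV} (hx : x ∈ W.W) : (d j f).fn x = ds j f.fn x :=
  of_fn _ _ hx

lemma fn_dz (k : Fin 2) (f : OO W A) {x : VV} (hx : x ∈ W.W) : (dz k f).fn x = dzb k f.fn x :=
  of_fn _ _ hx

lemma diff (f : OO W A) {x : VV} (hx : x ∈ W.W) : DifferentiableAt ℝ f.fn x :=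
  f.fn_hol.diffAt W.st.op hx

lemma fn_of_congr {F G : VV → A} (hF : HolOn W.W F) (hG : HolOn W.W G)
    (h : ∀ x ∈ W.W, F x = G x) : OO.of (W := W) F hF = OO.of G hG :=
  ext_fn fun x hx => by rw [of_fn _ _ hx, of_fn _ _ hx, h x hx]

/-- `dv` of the underlying function of `OO.of`. -/
lemma dv_of (F : VV → A) (h : HolOn W.W F) {x : VV} (hx : x ∈ W.W) (v : VV) :
    dv v (OO.of (W := W) F h).fn x = dv v F x :=
  dv_congr W.st.op (fun _ hy => of_fn F h hy) hx v

lemma dv_fn_add (f g : OO W A) {x : VV} (hx : x ∈ W.W) (v : VV) :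
    dv v (f + g).fn x = dv v f.fn x + dv v g.fn x := by
  rw [show (f + g).fn = fun x => f.fn x + g.fn x from funext (fn_add f g)]
  exact dv_add (f.diff hx) (g.diff hx) v

lemma dv_fn_mul (f g : OO W A) {x : VV} (hx : x ∈ W.W) (v : VV) :
    dv v (f * g).fn x = dv v f.fn x * g.fn x + f.fn x * dv v g.fn x := by
  rw [show (f * g).fn = fun x => f.fn x * g.fn x from funext (fn_mul f g)]
  exact dv_mul (f.diff hx) (g.diff hx) v

lemma dv_fn_smul (f : OO W ℂ) (g : OO W A) {x : VV} (hx : x ∈ W.W) (v : VV) :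
    dv v (f • g).fn x = dv v f.fn x • g.fn x + f.fn x • dv v g.fn x := by
  rw [show (f • g).fn = fun x => f.fn x • g.fn x from funext (fn_smul f g)]
  exact dv_smul (f.diff hx) (g.diff hx) v

lemma dv_fn_csmul (c : ℂ) (g : OO W A) {x : VV} (hx : x ∈ W.W) (v : VV) :
    dv v (c • g).fn x = c • dv v g.fn x := by
  rw [show (c • g).fn = fun x => c • g.fn x from funext (fn_csmul c g)]
  exact dv_csmul c (g.diff hx) v

lemma d_add (j : Fin 2) (f g : OO W A) : d j (f + g) = d j f + d j g :=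
  ext_fn fun x hx => by
    rw [fn_add, fn_d _ _ hx, fn_d _ _ hx, fn_d _ _ hx]
    exact dv_fn_add f g hx _

lemma dz_add (j : Fin 2) (f g : OO W A) : dz j (f + g) = dz j f + dz j g :=
  ext_fn fun x hx => by
    rw [fn_add, fn_dz _ _ hx, fn_dz _ _ hx, fn_dz _ _ hx]
    unfold dzb
    rw [dv_fn_add f g hx, dv_fn_add f g hx]
    module

lemma d_mul (j : Fin 2) (f g : OO W A) : d j (f * g) = d j f * g + f * d j g :=
  ext_fn fun x hx => by
    rw [fn_add, fn_mul, fn_mul, fn_d _ _ hx, fn_d _ _ hx, fn_d _ _ hx]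
    exact dv_fn_mul f g hx _

lemma dz_mul (j : Fin 2) (f g : OO W A) : dz j (f * g) = dz j f * g + f * dz j g :=
  ext_fn fun x hx => by
    rw [fn_add, fn_mul, fn_mul, fn_dz _ _ hx, fn_dz _ _ hx, fn_dz _ _ hx]
    unfold dzb
    rw [dv_fn_mul f g hx, dv_fn_mul f g hx]
    simp only [smul_add, smul_mul_assoc, mul_smul_comm, add_mul, mul_add]
    abel

lemma d_smul (j : Fin 2) (f : OO W ℂ) (g : OO W A) : d j (f • g) = d j f • g + f • d j g :=
  ext_fn fun x hx => by
    rw [fn_add, fn_smul, fn_smul, fn_d _ _ hx, fn_d _ _ hx, fn_d _ _ hx]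
    exact dv_fn_smul f g hx _

lemma dz_smul (j : Fin 2) (f : OO W ℂ) (g : OO W A) : dz j (f • g) = dz j f • g + f • dz j g :=
  ext_fn fun x hx => by
    rw [fn_add, fn_smul, fn_smul, fn_dz _ _ hx, fn_dz _ _ hx, fn_dz _ _ hx]
    unfold dzb
    rw [dv_fn_smul f g hx, dv_fn_smul f g hx]
    simp only [smul_eq_mul]
    module

lemma d_csmul (j : Fin 2) (c : ℂ) (g : OO W A) : d j (c • g) = c • d j g :=
  ext_fn fun x hx => by
    rw [fn_csmul, fn_d _ _ hx, fn_d _ _ hx]
    exact dv_fn_csmul c g hx _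

lemma dz_csmul (j : Fin 2) (c : ℂ) (g : OO W A) : dz j (c • g) = c • dz j g :=
  ext_fn fun x hx => by
    rw [fn_csmul, fn_dz _ _ hx, fn_dz _ _ hx]
    unfold dzb
    rw [dv_fn_csmul c g hx, dv_fn_csmul c g hx]
    module

lemma d_d (i j : Fin 2) (f : OO W A) : d i (d j f) = d j (d i f) :=
  ext_fn fun x hx => by
    have h1 : ∀ i j : Fin 2, (d i (d j f)).fn x = dv (es i) (dv (es j) f.fn) x := fun i j => by
      rw [fn_d _ _ hx]
      exact dv_of _ _ hx _
    rw [h1, h1]
    exact dv_comm W.st.op f.fn_hol.sm hx _ _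

lemma dv_dzb {F : VV → A} (hF : HolOn W.W F) {x : VV} (hx : x ∈ W.W) (v : VV) (k : Fin 2) :
    dv v (dzb k F) x = dzb k (dv v F) x := by
  have h1 := (hF.dv W.st.op (ez k)).diffAt W.st.op hx
  have h2 := (hF.dv W.st.op (iez k)).diffAt W.st.op hx
  unfold dzb
  have h3 : DifferentiableAt ℝ (fun x => Complex.I • dv (iez k) F x) x := h2.const_smul Complex.I
  have h4 : DifferentiableAt ℝ (fun x => dv (ez k) F x + Complex.I • dv (iez k) F x) x := h1.add h3
  rw [dv_csmul (1 / 2) h4, dv_add h1 h3, dv_csmul Complex.I h2, dv_comm W.st.op hF.sm hx (ez k) v, dv_comm W.st.op hF.sm hx (iez k) v]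

lemma d_dz (i k : Fin 2) (f : OO W A) : d i (dz k f) = dz k (d i f) :=
  ext_fn fun x hx => by
    have h1 : (d i (dz k f)).fn x = dv (es i) (dzb k f.fn) x := by
      rw [fn_d _ _ hx]
      exact dv_of _ _ hx _
    rw [h1, dv_dzb f.fn_hol hx, fn_dz _ _ hx]
    unfold dzb
    unfold d
    rw [dv_of _ _ hx, dv_of _ _ hx]
    rfl

lemma dz_dz (i k : Fin 2) (f : OO W A) : dz i (dz k f) = dz k (dz i f) :=
  ext_fn fun x hx => by
    rw [fn_dz _ _ hx, fn_dz _ _ hx]
    have h1 : ∀ (i k : Fin 2), dzb i (dz k f).fn x = (1 / 2 : ℂ) •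
        (dzb k (dv (ez i) f.fn) x + Complex.I • dzb k (dv (iez i) f.fn) x) := by
      intro i k
      rw [← dv_dzb f.fn_hol hx, ← dv_dzb f.fn_hol hx]
      unfold dz
      rw [← dv_of _ (f.fn_hol.dzb W.st.op k) hx, ← dv_of _ (f.fn_hol.dzb W.st.op k) hx]
      rfl
    rw [h1, h1]
    unfold dzb
    rw [dv_comm W.st.op f.fn_hol.sm hx (ez i) (ez k), dv_comm W.st.op f.fn_hol.sm hx (iez i) (ez k),
      dv_comm W.st.op f.fn_hol.sm hx (ez i) (iez k), dv_comm W.st.op f.fn_hol.sm hx (iez i) (iez k)]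
    module

end OO

end Vale.Agent.P267.H993
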